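import Vale.Agent.P139.H836.Recon

/-! # Reconstruction of the zero mode, gauge, closeness to the circle -/

open Set Metric Filter Topology MeasureTheory
open scoped NNReal ComplexConjugate

namespace Vale.Agent.P139.BN.RG

open Vale.Agent.P139.A Vale.Agent.P139.A.WA Vale.Agent.P139.H836

variable {d k : ℕ}

/-- The reconstruction, with the formula for the reconstructed curve. -/
theorem recon_form {m : ℕ} {c : ℝ} (hc : 0 < c) {μ : ℝ} (hμ : 0 ≤ μ)
    (hmc : μ = m * c ^ (2 * m)) {T : ℝ} (hT : 0 ≤ T) {y : ℝ → WA d k} (hy0 : coef (y 0) 0 = 0)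
    (hy : ∀ t ∈ Icc 0 T, HasDerivWithinAt y
      (S k hμ (-t) (fe m c (mass (y 0)) (S k hμ t (y t)))) (Icc 0 T) t)
    (hb : ∀ t ∈ Icc 0 T, ‖S k hμ t (y t)‖ ≤ c / 2) :
    ∃ v : ℝ → WA d k, v 0 = cst c + y 0 ∧ ContinuousOn v (Icc 0 T) ∧
      (∀ t ∈ Icc 0 T, coef (v t) 0 ≠ 0) ∧
      (∀ t ∈ Icc 0 T, ∀ n, HasDerivWithinAt (fun t => coef (v t) n)
        (-Complex.I * (sqNorm n * coef (v t) n) + coef (Nl m (v t)) n) (Icc 0 T) t) ∧
      ∀ t ∈ Icc 0 T, v t = cst (bz c (mass (y 0)) (S k hμ t (y t))) + S k hμ t (y t) := by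
  set e : ℝ := mass (y 0) with he
  have he0 : 0 ≤ e := mass_nonneg _
  set w : ℝ → WA d k := fun t => S k hμ t (y t) with hw
  have hyc : ContinuousOn y (Icc 0 T) := fun t ht => (hy t ht).continuousWithinAt
  have hwc : ContinuousOn w (Icc 0 T) := continuousOn_S hμ hyc
  have h0T : (0 : ℝ) ∈ Icc 0 T := ⟨le_rfl, hT⟩
  have hw0 : w 0 = y 0 := S_zero hμ _
  -- coefficientwise derivative of `w`
  have hwd : ∀ t ∈ Icc 0 T, ∀ n, HasDerivWithinAt (fun t => coef (w t) n)
      ((if n = 0 then 0 else -Complex.I * ((sqNorm n + μ) * coef (w t) n +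
        μ * conj (coef (w t) (-n)))) + coef (fe m c e (w t)) n) (Icc 0 T) t := by
    intro t ht n
    have h1 := hasDeriv_S hμ (hy t ht) n
    rw [S_S_neg] at h1
    exact h1
  -- the zero mode vanishes
  have hwz : ∀ t ∈ Icc 0 T, coef (w t) 0 = 0 := by
    intro t ht
    have h1 := (convex_Icc (0 : ℝ) T).norm_image_sub_le_of_norm_hasDerivWithin_le
      (f := fun t => coef (w t) 0) (C := 0) (fun s hs => hwd s hs 0) (fun s hs => ?_) h0T ht
    · rw [zero_mul] at h1
      have h2 := sub_eq_zero.1 (norm_le_zero_iff.1 h1)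
      rw [h2, hw0, hy0]
    · rw [if_pos rfl, zero_add]
      unfold fe
      rw [coef_sub, coef_Pz, coef_Lin, if_pos rfl, if_pos rfl, sub_zero, norm_zero]
  have hwPz : ∀ t ∈ Icc 0 T, Pz (w t) = w t := fun t ht => Pz_of_zero (hwz t ht)
  -- the zero mode of `v`
  set R : ℝ → ℝ := fun t => c ^ 2 + e - mass (w t) with hR
  set b : ℝ → ℝ := fun t => Real.sqrt (R t) with hbdef
  have hbz : ∀ t ∈ Icc 0 T, bz c e (w t) = b t := by
    intro t ht
    simp only [bz, hwPz t ht, hbdef, hR]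
  have hRpos : ∀ t ∈ Icc 0 T, 0 < R t := by
    intro t ht
    have h1 : mass (w t) ≤ (c / 2) ^ 2 := (mass_le _).trans
      (pow_le_pow_left₀ (norm_nonneg _) (hb t ht) 2)
    have h2 : 0 < c ^ 2 := by positivity
    simp only [hR]
    nlinarith
  have hbpos : ∀ t ∈ Icc 0 T, 0 < b t := fun t ht => Real.sqrt_pos.2 (hRpos t ht)
  have hb0 : b 0 = c := by
    simp only [hbdef, hR, hw0, ← he]
    rw [add_sub_cancel_right, Real.sqrt_sq hc.le]
  set v : ℝ → WA d k := fun t => cst (b t) + w t with hv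
  have hmassc : ContinuousOn (fun t => mass (w t)) (Icc 0 T) :=
    continuous_mass.comp_continuousOn hwc
  have hbc : ContinuousOn b (Icc 0 T) :=
    Real.continuous_sqrt.comp_continuousOn (continuousOn_const.sub hmassc)
  have hvc : ContinuousOn v (Icc 0 T) := by
    refine ContinuousOn.add ?_ hwc
    unfold cst
    exact hbc.smul continuousOn_const
  have hv0 : ∀ t ∈ Icc 0 T, coef (v t) 0 = b t := by
    intro t ht
    simp only [hv, coef_add, coef_cst, if_pos, hwz t ht, add_zero]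
  have hvn : ∀ t, ∀ n : Lat d, n ≠ 0 → coef (v t) n = coef (w t) n := by
    intro t n hn
    simp only [hv, coef_add, coef_cst, if_neg hn, zero_add]
  have hv0' : ∀ t ∈ Icc 0 T, coef (v t) 0 ≠ 0 := by
    intro t ht
    rw [hv0 t ht]
    exact_mod_cast (hbpos t ht).ne'
  have hfe : ∀ t ∈ Icc 0 T, fe m c e (w t) = Pz (Nl m (v t)) - Lin μ (w t) := by
    intro t ht
    unfold fe
    rw [hbz t ht, hwPz t ht, hmc]
  -- derivative of the nonzero modes
  have hwd' : ∀ t ∈ Icc 0 T, ∀ n, n ≠ 0 → HasDerivWithinAt (fun t => coef (w t) n)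
      (-Complex.I * (sqNorm n * coef (w t) n) + coef (Nl m (v t)) n) (Icc 0 T) t := by
    intro t ht n hn
    refine (hwd t ht n).congr_deriv ?_
    rw [hfe t ht, coef_sub, coef_Pz, coef_Lin, if_neg hn, if_neg hn, if_neg hn]
    ring
  -- derivative of the mass
  have hNc : ContinuousOn (fun t => Nl m (v t)) (Icc 0 T) := fun t ht =>
    ((contDiffAt_Nl m (hv0' t ht)).continuousAt).comp_continuousWithinAt (hvc t ht)
  have hmd := hasDeriv_mass hT hwc hNc (fun t ht n => by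
    by_cases hn : n = 0
    · subst hn
      rw [hwz t ht]
      simp only [map_zero, mul_zero, Complex.zero_re]
      refine (hasDerivWithinAt_const t (Icc 0 T) (0 : ℝ)).congr (fun s hs => ?_) ?_
      · rw [hwz s hs]; simp
      · rw [hwz t ht]; simp
    · have h1 := hwd' t ht n hn
      have h2 := h1.norm_sq
      refine h2.congr_deriv ?_
      rw [Complex.inner]
      simp only [Complex.mul_re, Complex.add_re, Complex.add_im, Complex.mul_im, Complex.neg_re,
        Complex.neg_im, Complex.I_re, Complex.I_im, Complex.conj_re, Complex.conj_im,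
        Complex.ofReal_re, Complex.ofReal_im]
      ring)
  have hbd : ∀ t ∈ Icc 0 T, HasDerivWithinAt b ((coef (Nl m (v t)) 0).re) (Icc 0 T) t := by
    intro t ht
    have h1 : HasDerivWithinAt R (-(2 * (coef (Nl m (v t) * conjL (w t)) 0).re)) (Icc 0 T) t :=
      (hmd t ht).const_sub _
    have h2 := h1.sqrt (hRpos t ht).ne'
    refine h2.congr_deriv ?_
    have h3 : w t = v t - cst (b t) := by simp only [hv]; abel
    have h4 : (coef (Nl m (v t) * conjL (w t)) 0).re = - (b t * (coef (Nl m (v t)) 0).re) := by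
      rw [h3, map_sub, mul_sub, coef_sub, Complex.sub_re, re_Nl_conj, conjL_cst, zero_sub]
      unfold cst
      rw [mul_smul_comm, mul_one, coef_real_smul, Complex.re_ofReal_mul]
    rw [h4]
    have h5 := (hbpos t ht).ne'
    simp only [hbdef] at h5 ⊢
    field_simp
  refine ⟨v, ?_, hvc, hv0', fun t ht n => ?_, fun t ht => ?_⟩
  · simp only [hv, hb0, hw0]
  · by_cases hn : n = 0
    · subst hn
      have h1 : HasDerivWithinAt (fun t => ((b t : ℝ) : ℂ)) (((coef (Nl m (v t)) 0).re : ℝ) : ℂ)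
          (Icc 0 T) t := (hbd t ht).ofReal_comp
      have h2 := h1.congr (fun s hs => hv0 s hs) (hv0 t ht)
      refine h2.congr_deriv ?_
      rw [sqNorm_zero]
      have h3 := im_Nl_zero m (hbpos t ht).ne' (hv0 t ht)
      apply Complex.ext
      · simp
      · simp [h3]
    · have h1 := (hwd' t ht n hn).congr (fun s _ => hvn s n hn) (hvn t n hn)
      rwa [← hvn t n hn] at h1
  · show cst (b t) + w t = cst (bz c e (w t)) + w t
    rw [hbz t ht]

/-- distance of the reconstructed zero mode from `c` -/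
theorem bz_close {c r : ℝ} (hc : 0 < c) (hr0 : 0 ≤ r) (hr : r ≤ c / 2) {e : ℝ} (he0 : 0 ≤ e)
    (he : e ≤ r ^ 2) {w : WA d k} (hw : ‖w‖ ≤ r) : |bz c e w - c| ≤ r := by
  have h1 : 0 ≤ mass (Pz w) := mass_nonneg _
  have h2 : mass (Pz w) ≤ r ^ 2 :=
    (mass_le _).trans (pow_le_pow_left₀ (norm_nonneg _) ((norm_Pz_le w).trans hw) 2)
  unfold bz
  rw [abs_le]
  constructor
  · have h3 : (c - r) ^ 2 ≤ c ^ 2 + e - mass (Pz w) := by nlinarith
    have h4 := Real.sqrt_le_sqrt h3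
    rw [Real.sqrt_sq (by linarith)] at h4
    linarith
  · have h3 : c ^ 2 + e - mass (Pz w) ≤ (c + r) ^ 2 := by nlinarith
    have h4 := Real.sqrt_le_sqrt h3
    rw [Real.sqrt_sq (by linarith)] at h4
    linarith

/-- **Reconstruction, gauge and closeness to the circle.** -/
theorem recon_gauge {m : ℕ} {c r : ℝ} (hc : 0 < c) (hr0 : 0 ≤ r) (hr : r ≤ c / 2) {μ : ℝ}
    (hμ : 0 ≤ μ) (hmc : μ = m * c ^ (2 * m)) {T : ℝ} (hT : 0 ≤ T) {y : ℝ → WA d k}
    (hy0 : coef (y 0) 0 = 0) (hyr : ‖y 0‖ ≤ r)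
    (hy : ∀ t ∈ Icc 0 T, HasDerivWithinAt y
      (S k hμ (-t) (fe m c (mass (y 0)) (S k hμ t (y t)))) (Icc 0 T) t)
    (hb : ∀ t ∈ Icc 0 T, ‖S k hμ t (y t)‖ ≤ r) :
    ∃ u : ℝ → WA d k, u 0 = cst c + y 0 ∧ IsSolution d (2 * m + 1) k T (fun t => coef (u t)) ∧
      ∀ t ∈ Icc 0 T, ∃ ζ : ℂ, ‖ζ‖ = 1 ∧ ‖u t - ζ • cst c‖ ≤ 2 * r := by
  obtain ⟨v, hv0, hvc, hvn, hvd, hvf⟩ := recon_form hc hμ hmc hT hy0 hy
    (fun t ht => (hb t ht).trans hr)
  obtain ⟨u, hu0, hu, hw⟩ := gauge hT hvc hvd hvn 1 norm_one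
  refine ⟨u, by rw [hu0, one_smul, hv0], hu, fun t ht => ?_⟩
  obtain ⟨ζ, hζ, hut⟩ := hw t ht
  refine ⟨ζ, hζ, ?_⟩
  have he : mass (y 0) ≤ r ^ 2 := (mass_le _).trans (pow_le_pow_left₀ (norm_nonneg _) hyr 2)
  have h1 := bz_close hc hr0 hr (mass_nonneg (y 0)) he (hb t ht)
  have e1 : v t - cst c = cst (bz c (mass (y 0)) (S k hμ t (y t)) - c) + S k hμ t (y t) := by
    rw [hvf t ht]
    unfold cst
    module
  rw [hut, ← smul_sub, norm_smul, hζ, one_mul, e1]
  have h2 : ‖(cst (bz c (mass (y 0)) (S k hμ t (y t)) - c) : WA d k)‖ ≤ r := by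
    unfold cst
    rw [norm_smul, norm_one, mul_one, Real.norm_eq_abs]
    exact h1
  calc _ ≤ ‖(cst (bz c (mass (y 0)) (S k hμ t (y t)) - c) : WA d k)‖ + ‖S k hμ t (y t)‖ :=
        norm_add_le _ _
    _ ≤ r + r := add_le_add h2 (hb t ht)
    _ = 2 * r := by ring

end Vale.Agent.P139.BN.RG
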