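import Vale.Agent.P139.H836.Long

/-! # The nonlinearity of the closed system is Lipschitz on an explicit ball -/

open Set Metric Filter Topology
open scoped NNReal ComplexConjugate

namespace Vale.Agent.P139.BN.FL

section calculus

variable {E V : Type*} [SeminormedAddCommGroup E] [SeminormedAddCommGroup V]

/-- bounded and Lipschitz on `s` -/
def BL (s : Set E) (f : E → V) : Prop :=
  ∃ M K : ℝ, 0 ≤ M ∧ 0 ≤ K ∧ (∀ x ∈ s, ‖f x‖ ≤ M) ∧ ∀ x ∈ s, ∀ y ∈ s, ‖f x - f y‖ ≤ K * ‖x - y‖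

theorem BL.const (s : Set E) (v : V) : BL s (fun _ => v) :=
  ⟨‖v‖, 0, norm_nonneg _, le_rfl, fun _ _ => le_rfl, fun x _ y _ => by simp⟩

theorem BL.id' {s : Set E} {R : ℝ} (hs : ∀ x ∈ s, ‖x‖ ≤ R) (hR : 0 ≤ R) : BL s (fun x => x) :=
  ⟨R, 1, hR, zero_le_one, hs, fun x _ y _ => by rw [one_mul]⟩

theorem BL.congr {s : Set E} {f g : E → V} (hf : BL s f) (h : ∀ x ∈ s, g x = f x) : BL s g := by
  obtain ⟨M, K, hM, hK, h1, h2⟩ := hf
  refine ⟨M, K, hM, hK, fun x hx => ?_, fun x hx y hy => ?_⟩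
  · rw [h x hx]; exact h1 x hx
  · rw [h x hx, h y hy]; exact h2 x hx y hy

theorem BL.add {s : Set E} {f g : E → V} (hf : BL s f) (hg : BL s g) : BL s (fun x => f x + g x) := by
  obtain ⟨M, K, hM, hK, h1, h2⟩ := hf
  obtain ⟨M', K', hM', hK', h1', h2'⟩ := hg
  refine ⟨M + M', K + K', by positivity, by positivity,
    fun x hx => (norm_add_le _ _).trans (add_le_add (h1 x hx) (h1' x hx)), fun x hx y hy => ?_⟩
  have e : f x + g x - (f y + g y) = (f x - f y) + (g x - g y) := by abel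
  rw [e, add_mul]
  exact (norm_add_le _ _).trans (add_le_add (h2 x hx y hy) (h2' x hx y hy))

theorem BL.neg {s : Set E} {f : E → V} (hf : BL s f) : BL s (fun x => -f x) := by
  obtain ⟨M, K, hM, hK, h1, h2⟩ := hf
  refine ⟨M, K, hM, hK, fun x hx => by rw [norm_neg]; exact h1 x hx, fun x hx y hy => ?_⟩
  have e : -f x - -f y = -(f x - f y) := by abel
  rw [e, norm_neg]
  exact h2 x hx y hy

theorem BL.sub {s : Set E} {f g : E → V} (hf : BL s f) (hg : BL s g) : BL s (fun x => f x - g x) :=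
  (hf.add hg.neg).congr fun x _ => sub_eq_add_neg _ _

theorem BL.mul {A : Type*} [NonUnitalSeminormedRing A] {s : Set E} {f g : E → A} (hf : BL s f)
    (hg : BL s g) : BL s (fun x => f x * g x) := by
  obtain ⟨M, K, hM, hK, h1, h2⟩ := hf
  obtain ⟨M', K', hM', hK', h1', h2'⟩ := hg
  refine ⟨M * M', K * M' + M * K', by positivity, by positivity, fun x hx => ?_, fun x hx y hy => ?_⟩
  · exact (norm_mul_le _ _).trans (mul_le_mul (h1 x hx) (h1' x hx) (norm_nonneg _) hM)
  · have e : f x * g x - f y * g y = (f x - f y) * g x + f y * (g x - g y) := by noncomm_ring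
    rw [e]
    calc _ ≤ ‖f x - f y‖ * ‖g x‖ + ‖f y‖ * ‖g x - g y‖ :=
          (norm_add_le _ _).trans (add_le_add (norm_mul_le _ _) (norm_mul_le _ _))
      _ ≤ (K * ‖x - y‖) * M' + M * (K' * ‖x - y‖) := by
          gcongr
          · exact h2 x hx y hy
          · exact h1' x hx
          · exact h1 y hy
          · exact h2' x hx y hy
      _ = (K * M' + M * K') * ‖x - y‖ := by ring

theorem BL.pow {A : Type*} [SeminormedRing A] {s : Set E} {f : E → A} (hf : BL s f) (n : ℕ) :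
    BL s (fun x => f x ^ n) := by
  induction n with
  | zero => simpa using BL.const s (1 : A)
  | succ n ih => simpa only [pow_succ] using ih.mul hf

theorem BL.smul [NormedSpace ℝ V] {s : Set E} {f : E → ℝ} {g : E → V} (hf : BL s f)
    (hg : BL s g) : BL s (fun x => f x • g x) := by
  obtain ⟨M, K, hM, hK, h1, h2⟩ := hf
  obtain ⟨M', K', hM', hK', h1', h2'⟩ := hg
  refine ⟨M * M', K * M' + M * K', by positivity, by positivity, fun x hx => ?_, fun x hx y hy => ?_⟩
  · rw [norm_smul]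
    exact mul_le_mul (h1 x hx) (h1' x hx) (norm_nonneg _) hM
  · have e : f x • g x - f y • g y = (f x - f y) • g x + f y • (g x - g y) := by module
    rw [e]
    calc _ ≤ ‖f x - f y‖ * ‖g x‖ + ‖f y‖ * ‖g x - g y‖ :=
          (norm_add_le _ _).trans (add_le_add (norm_smul _ _).le (norm_smul _ _).le)
      _ ≤ (K * ‖x - y‖) * M' + M * (K' * ‖x - y‖) := by
          gcongr
          · exact h2 x hx y hy
          · exact h1' x hx
          · exact h1 y hy
          · exact h2' x hx y hy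
      _ = (K * M' + M * K') * ‖x - y‖ := by ring

theorem BL.clm {V' : Type*} [SeminormedAddCommGroup V'] [NormedSpace ℝ V] [NormedSpace ℝ V']
    {s : Set E} {f : E → V} (hf : BL s f) (T : V →L[ℝ] V') : BL s (fun x => T (f x)) := by
  obtain ⟨M, K, hM, hK, h1, h2⟩ := hf
  refine ⟨‖T‖ * M, ‖T‖ * K, by positivity, by positivity, fun x hx => ?_, fun x hx y hy => ?_⟩
  · exact (T.le_opNorm _).trans (mul_le_mul_of_nonneg_left (h1 x hx) (norm_nonneg _))
  · rw [← map_sub, mul_assoc]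
    exact (T.le_opNorm _).trans (mul_le_mul_of_nonneg_left (h2 x hx y hy) (norm_nonneg _))

theorem BL.inv {s : Set E} {f : E → ℝ} (hf : BL s f) {δ : ℝ} (hδ : 0 < δ) (h : ∀ x ∈ s, δ ≤ f x) :
    BL s (fun x => (f x)⁻¹) := by
  obtain ⟨M, K, hM, hK, h1, h2⟩ := hf
  refine ⟨δ⁻¹, K * (δ⁻¹ * δ⁻¹), by positivity, by positivity, fun x hx => ?_, fun x hx y hy => ?_⟩
  · have h3 := h x hx
    rw [Real.norm_eq_abs, abs_inv, abs_of_pos (hδ.trans_le h3)]
    exact inv_anti₀ hδ h3
  · have hx' := hδ.trans_le (h x hx)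
    have hy' := hδ.trans_le (h y hy)
    have e : (f x)⁻¹ - (f y)⁻¹ = -((f x - f y) * ((f x)⁻¹ * (f y)⁻¹)) := by
      field_simp
      ring
    rw [e, norm_neg, norm_mul, norm_mul, norm_inv, norm_inv, Real.norm_of_nonneg hx'.le,
      Real.norm_of_nonneg hy'.le]
    calc ‖f x - f y‖ * ((f x)⁻¹ * (f y)⁻¹) ≤ (K * ‖x - y‖) * (δ⁻¹ * δ⁻¹) := by
          gcongr
          · exact h2 x hx y hy
          · exact h x hx
          · exact h y hy
      _ = K * (δ⁻¹ * δ⁻¹) * ‖x - y‖ := by ring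

theorem BL.sqrt {s : Set E} {f : E → ℝ} (hf : BL s f) {δ : ℝ} (hδ : 0 < δ) (h : ∀ x ∈ s, δ ≤ f x) :
    BL s (fun x => Real.sqrt (f x)) := by
  obtain ⟨M, K, hM, hK, h1, h2⟩ := hf
  have hd : 0 < Real.sqrt δ := Real.sqrt_pos.2 hδ
  refine ⟨Real.sqrt M, (Real.sqrt δ)⁻¹ * K, by positivity, by positivity, fun x hx => ?_,
    fun x hx y hy => ?_⟩
  · rw [Real.norm_of_nonneg (Real.sqrt_nonneg _)]
    exact Real.sqrt_le_sqrt ((Real.le_norm_self _).trans (h1 x hx))
  · have hx' : 0 ≤ f x := (hδ.trans_le (h x hx)).le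
    have hy' : 0 ≤ f y := (hδ.trans_le (h y hy)).le
    have h3 : Real.sqrt δ ≤ Real.sqrt (f x) + Real.sqrt (f y) :=
      (Real.sqrt_le_sqrt (h x hx)).trans (le_add_of_nonneg_right (Real.sqrt_nonneg _))
    have e : (Real.sqrt (f x) - Real.sqrt (f y)) * (Real.sqrt (f x) + Real.sqrt (f y)) = f x - f y := by
      have k1 := Real.mul_self_sqrt hx'
      have k2 := Real.mul_self_sqrt hy'
      nlinarith
    have h4 : ‖Real.sqrt (f x) - Real.sqrt (f y)‖ * Real.sqrt δ ≤ K * ‖x - y‖ := by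
      refine le_trans ?_ (h2 x hx y hy)
      rw [← e, norm_mul]
      refine mul_le_mul_of_nonneg_left ?_ (norm_nonneg _)
      exact h3.trans (Real.le_norm_self _)
    rw [mul_assoc, inv_mul_eq_div, le_div_iff₀ hd]
    exact h4

end calculus

open Vale.Agent.P139.A Vale.Agent.P139.A.WA Vale.Agent.P139.H836

variable {d k : ℕ}

theorem bl_mass {s : Set (WA d k)} (hs : BL s (fun w : WA d k => w)) :
    BL s (fun w => mass (Pz w)) := by
  have h1 := hs.clm (Pz (d := d) (k := k))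
  have h2 := (h1.mul (h1.clm (conjL (d := d) (k := k)))).clm (coefR (d := d) (k := k) 0)
  exact h2.clm Complex.reCLM

theorem bl_fe (m : ℕ) {c e : ℝ} (hc : 0 < c) (he : 0 ≤ e) :
    BL (closedBall (0 : WA d k) (c / 4)) (fe m c e : WA d k → WA d k) := by
  set s : Set (WA d k) := closedBall (0 : WA d k) (c / 4) with hs
  have hsn : ∀ x ∈ s, ‖x‖ ≤ c / 4 := fun x hx => by
    rw [hs, mem_closedBall, dist_zero_right] at hx
    exact hx
  have hid : BL s (fun w : WA d k => w) := BL.id' hsn (by positivity)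
  have hm := bl_mass hid
  have hlow : ∀ x ∈ s, c ^ 2 / 2 ≤ c ^ 2 + e - mass (Pz x) := by
    intro x hx
    have h1 : mass (Pz x) ≤ (c / 4) ^ 2 :=
      (mass_le _).trans (pow_le_pow_left₀ (norm_nonneg _) ((norm_Pz_le x).trans (hsn x hx)) 2)
    have h2 : 0 < c ^ 2 := by positivity
    nlinarith
  have hc2 : 0 < c ^ 2 / 2 := by positivity
  have harg : BL s (fun w => c ^ 2 + e - mass (Pz w)) := (BL.const s (c ^ 2 + e)).sub hm
  have hbz : BL s (fun w => bz c e w) := harg.sqrt hc2 hlow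
  have hbl : ∀ x ∈ s, Real.sqrt (c ^ 2 / 2) ≤ bz c e x := fun x hx => Real.sqrt_le_sqrt (hlow x hx)
  have hbinv : BL s (fun w => (bz c e w)⁻¹) := hbz.inv (Real.sqrt_pos.2 hc2) hbl
  have hP : BL s (fun w => Pz w) := hid.clm (Pz (d := d) (k := k))
  have hcst : BL s (fun w => (cst (bz c e w) : WA d k)) := hbz.smul (BL.const s (1 : WA d k))
  have hv : BL s (fun w => cst (bz c e w) + Pz w) := hcst.add hP
  have hF : BL s (fun w => F m (cst (bz c e w) + Pz w)) :=
    (hv.pow (m + 1)).mul ((hv.clm (conjL (d := d) (k := k))).pow m)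
  have hg : BL s (fun w => g m (cst (bz c e w) + Pz w)) := by
    have h1 := ((hF.clm (coefR (d := d) (k := k) 0)).clm Complex.reCLM).mul hbinv
    refine h1.congr fun x hx => ?_
    have e1 : coef (cst (bz c e x) + Pz x) 0 = ((bz c e x : ℝ) : ℂ) := by
      rw [coef_add, coef_cst, coef_Pz, if_pos rfl, if_pos rfl, add_zero]
    unfold g
    rw [e1, Complex.div_ofReal_re, div_eq_mul_inv]
    rfl
  have hI : ∀ {f : WA d k → WA d k}, BL s f → BL s (fun w => Complex.I • f w) := by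
    intro f hf
    have h1 := hf.clm ((Complex.I • ContinuousLinearMap.id ℂ (WA d k)).restrictScalars ℝ)
    exact h1
  have hN : BL s (fun w => Nl m (cst (bz c e w) + Pz w)) := (hI hF).neg.add (hg.smul (hI hv))
  have hfin := (hN.clm (Pz (d := d) (k := k))).sub (hid.clm (Lin (d := d) (k := k) (m * c ^ (2 * m))))
  exact hfin

/-- **The nonlinearity is Lipschitz on the ball of radius `c / 4`.** -/
theorem fe_lip_ball (m : ℕ) {c e : ℝ} (hc : 0 < c) (he : 0 ≤ e) :
    ∃ K : ℝ≥0, LipschitzOnWith K (fe m c e : WA d k → WA d k) (closedBall 0 (c / 4)) := by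
  obtain ⟨M, K, hM, hK, h1, h2⟩ := bl_fe (d := d) (k := k) m hc he
  refine ⟨⟨K, hK⟩, LipschitzOnWith.of_dist_le_mul fun x hx y hy => ?_⟩
  rw [dist_eq_norm, dist_eq_norm]
  exact h2 x hx y hy

end Vale.Agent.P139.BN.FL
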