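import Vale.Agent.P139.R2.H999.BrB

/-! # Classes: linear operations, diagonal quadratic forms -/

open MvPolynomial Finset

namespace Vale.Agent.P139.BN

open Vale.Agent.P139.A Vale.Agent.P139.A.WA

variable {d : ℕ} {ι : Type} [Fintype ι]

theorem cls_zero (mo : ι → Lat d) (D : WS ι) (j : ℕ) : Cls mo D j 0 0 :=
  ⟨fun _ => 0, fun I => by simp, fun I _ => rfl, by simp⟩

theorem cls_mono (mo : ι → Lat d) (D : WS ι) (hD : ∀ j I, 0 ≤ D j I) (j : ℕ) (F F' : ℝ) (P : Pl ι)
    (h : F ≤ F') (hP : Cls mo D j F P) : Cls mo D j F' P := by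
  obtain ⟨a, h1, h2, h3⟩ := hP
  exact ⟨a, fun I => (h1 I).trans (mul_le_mul_of_nonneg_right h (hD j I)), h2, h3⟩

theorem cls_add (mo : ι → Lat d) (D : WS ι) (j : ℕ) (F F' : ℝ) (P P' : Pl ι)
    (hP : Cls mo D j F P) (hP' : Cls mo D j F' P') : Cls mo D j (F + F') (P + P') := by
  obtain ⟨a, h1, h2, h3⟩ := hP
  obtain ⟨a', h1', h2', h3'⟩ := hP'
  refine ⟨fun I => a I + a' I, fun I => ?_, fun I hI => ?_, ?_⟩
  · rw [add_mul]
    exact (norm_add_le _ _).trans (add_le_add (h1 I) (h1' I))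
  · simp only [h2 I hI, h2' I hI, add_zero]
  · rw [h3, h3', ← Finset.sum_add_distrib]
    exact Finset.sum_congr rfl fun I _ => by rw [C_add, add_mul]

theorem cls_csmul (mo : ι → Lat d) (D : WS ι) (j : ℕ) (F : ℝ) (c : ℂ) (P : Pl ι)
    (hP : Cls mo D j F P) : Cls mo D j (‖c‖ * F) (c • P) := by
  obtain ⟨a, h1, h2, h3⟩ := hP
  refine ⟨fun I => c * a I, fun I => ?_, fun I hI => ?_, ?_⟩
  · rw [norm_mul, mul_assoc]
    exact mul_le_mul_of_nonneg_left (h1 I) (norm_nonneg _)
  · simp only [h2 I hI, mul_zero]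
  · rw [h3, Finset.smul_sum]
    exact Finset.sum_congr rfl fun I _ => by rw [C_mul, mul_assoc, smul_eq_C_mul]

theorem cls_smul (mo : ι → Lat d) (D : WS ι) (j : ℕ) (F c : ℝ) (P : Pl ι)
    (hP : Cls mo D j F P) : Cls mo D j (|c| * F) (c • P) := by
  have := cls_csmul mo D j F (c : ℂ) P hP
  rw [Complex.norm_real, Real.norm_eq_abs] at this
  rwa [← algebraMap_smul ℂ c P]

theorem pderiv_quad_true (a : ι → ℝ) (n : ι) :
    pderiv (n, true) (quad a) = C (a n : ℂ) * X (n, false) := by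
  classical
  unfold quad
  rw [map_sum, Finset.sum_eq_single n]
  · rw [pderiv_C_mul, pderiv_mul, pderiv_X_self, pderiv_X_of_ne (by simp)]
    ring
  · intro m _ hm
    rw [pderiv_C_mul, pderiv_mul, pderiv_X_of_ne (by simp [hm]), pderiv_X_of_ne (by simp)]
    ring
  · intro h; exact absurd (Finset.mem_univ n) h

theorem pderiv_quad_false (a : ι → ℝ) (n : ι) :
    pderiv (n, false) (quad a) = C (a n : ℂ) * X (n, true) := by
  classical
  unfold quad
  rw [map_sum, Finset.sum_eq_single n]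
  · rw [pderiv_C_mul, pderiv_mul, pderiv_X_self, pderiv_X_of_ne (by simp)]
    ring
  · intro m _ hm
    rw [pderiv_C_mul, pderiv_mul, pderiv_X_of_ne (by simp), pderiv_X_of_ne (by simp [hm])]
    ring
  · intro h; exact absurd (Finset.mem_univ n) h

theorem quad_quad (a b : ι → ℝ) : br (quad a) (quad b) = 0 := by
  unfold br
  refine Finset.sum_eq_zero fun n _ => ?_
  rw [pderiv_quad_true, pderiv_quad_true, pderiv_quad_false, pderiv_quad_false]
  ring

end Vale.Agent.P139.BN
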