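import Vale.Agent.P139.R2.H999.BrB

/-! # The normal form theorem (row R4) from the class estimates (row R3) -/

open MvPolynomial Finset

namespace Vale.Agent.P139.BN

open Vale.Agent.P139.A Vale.Agent.P139.A.WA

variable {d : ℕ}

/-- the constant -/
theorem const_le {N J : ℕ} (hNJ : N + 2 ≤ J) {A κ γ : ℝ} (hA : 1 ≤ A) (hκ : 1 ≤ κ) (hγ : 0 < γ)
    (hγ1 : γ ≤ 1) {B : ℝ} (hB : B = 3 * ((N : ℝ) + 1) * (κ / γ) * A * (2 * κ * J ^ 2)) {l : ℕ}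
    (hl : l ≤ N) : B ^ (l ^ 2 + l) ≤ Cst 3 J A κ 1 γ := by
  have hJ : (2 : ℝ) ≤ J := by
    have : ((N + 2 : ℕ) : ℝ) ≤ (J : ℝ) := by exact_mod_cast hNJ
    push_cast at this
    have h0 : (0 : ℝ) ≤ N := Nat.cast_nonneg N
    linarith
  have hNJ' : (N : ℝ) + 1 ≤ J := by
    have : ((N + 2 : ℕ) : ℝ) ≤ (J : ℝ) := by exact_mod_cast hNJ
    push_cast at this
    linarith
  have hg : 1 ≤ 1 / γ := by rw [le_div_iff₀ hγ]; linarith
  set Y : ℝ := 2 * J * A * κ * 1 / γ with hY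
  have hYe : Y = 2 * J * A * κ * (1 / γ) := by rw [hY]; ring
  have hY1 : 1 ≤ Y := by
    rw [hYe]
    have h1 : 1 ≤ 2 * (J : ℝ) := by linarith
    have h2 : 1 ≤ 2 * (J : ℝ) * A := one_le_mul_of_one_le_of_one_le h1 hA
    have h3 : 1 ≤ 2 * (J : ℝ) * A * κ := one_le_mul_of_one_le_of_one_le h2 hκ
    exact one_le_mul_of_one_le_of_one_le h3 hg
  have hBY : B ≤ Y ^ 3 := by
    rw [hB, hYe]
    have e1 : 3 * ((N : ℝ) + 1) * (κ / γ) * A * (2 * κ * J ^ 2) =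
        (6 * J ^ 2 * A * κ ^ 2 * (1 / γ)) * ((N : ℝ) + 1) := by ring
    have e2 : (2 * J * A * κ * (1 / γ)) ^ 3 =
        (6 * J ^ 2 * A * κ ^ 2 * (1 / γ)) * (J * (4 / 3 * (A ^ 2 * (κ * (1 / γ) ^ 2)))) := by ring
    rw [e1, e2]
    have h1 : 1 ≤ A ^ 2 * (κ * (1 / γ) ^ 2) :=
      one_le_mul_of_one_le_of_one_le (one_le_pow₀ hA)
        (one_le_mul_of_one_le_of_one_le hκ (one_le_pow₀ hg))
    have h2 : (N : ℝ) + 1 ≤ J * (4 / 3 * (A ^ 2 * (κ * (1 / γ) ^ 2))) := by nlinarith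
    have h3 : 0 ≤ 6 * (J : ℝ) ^ 2 * A * κ ^ 2 * (1 / γ) := by positivity
    exact mul_le_mul_of_nonneg_left h2 h3
  have hB0 : 0 ≤ B := by rw [hB]; positivity
  unfold Cst
  rw [← hY]
  calc B ^ (l ^ 2 + l) ≤ (Y ^ 3) ^ (l ^ 2 + l) := pow_le_pow_left₀ hB0 hBY _
    _ = Y ^ (3 * (l ^ 2 + l)) := by rw [← pow_mul]
    _ ≤ Y ^ (3 * (J + 1) ^ 2) := by
      refine pow_le_pow_right₀ hY1 ?_
      have : l + 2 ≤ J := by omega
      nlinarith

/-- the class estimates (row R3) used for the normal form -/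
structure R3 (d : ℕ) : Prop where
  zero : ∀ {ι : Type} [Fintype ι] (mo : ι → Lat d) (D : WS ι) (j : ℕ), Cls mo D j 0 0
  mono : ∀ {ι : Type} [Fintype ι] (mo : ι → Lat d) (D : WS ι), (∀ j I, 0 ≤ D j I) → ∀ (j : ℕ)
    (F F' : ℝ) (P : Pl ι), F ≤ F' → Cls mo D j F P → Cls mo D j F' P
  add : ∀ {ι : Type} [Fintype ι] (mo : ι → Lat d) (D : WS ι) (j : ℕ) (F F' : ℝ) (P P' : Pl ι),
    Cls mo D j F P → Cls mo D j F' P' → Cls mo D j (F + F') (P + P')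
  smul : ∀ {ι : Type} [Fintype ι] (mo : ι → Lat d) (D : WS ι) (j : ℕ) (F c : ℝ) (P : Pl ι),
    Cls mo D j F P → Cls mo D j (|c| * F) (c • P)
  br0 : ∀ {ι : Type} [Fintype ι] [DecidableEq ι] (mo : ι → Lat d), Function.Injective mo →
    ∀ (p q : ℕ) (A F : ℝ) (P Q : Pl ι), 0 ≤ A → 0 ≤ F → Cls mo D0 (p + 1) A P →
    Cls mo D0 (q + 1) F Q → Cls mo D0 (p + q) (2 * (p + 1) * (q + 1) * A * F) (br P Q)
  brW : ∀ {ι : Type} [Fintype ι] [DecidableEq ι] (J : ℕ) (κ γ : ℝ) (R : ℕ) (θ S : ℝ)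
      (mo : ι → Lat d) (lev : ι → ℕ) (fr W pw : ι → ℝ), 1 ≤ κ →
      Modes ι d J κ γ R θ S mo lev fr W pw →
    ∀ (p q : ℕ), p + 1 ≤ J → q + 1 ≤ J → ∀ (A F : ℝ) (P Q : Pl ι), 0 ≤ A → 0 ≤ F →
      Cls mo D0 (p + 1) A P → Cls mo (DW W pw) (q + 1) F Q →
      Cls mo (DW W pw) (p + q) (2 * (p + 1) * (q + 1) * κ * A * F) (br P Q)
  hom : ∀ {ι : Type} [Fintype ι] [DecidableEq ι] (J : ℕ) (κ γ : ℝ) (R : ℕ) (θ S : ℝ)
      (mo : ι → Lat d) (lev : ι → ℕ) (fr W pw : ι → ℝ), 1 ≤ κ → 0 < γ →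
      Modes ι d J κ γ R θ S mo lev fr W pw →
    ∀ (j : ℕ), 3 ≤ j → j ≤ J → ∀ (C : ℝ), 0 ≤ C → ∀ (P : Pl ι), Cls mo D0 j C P →
      ∃ x z : Pl ι, P = br x (quad fr) + z ∧ Cls mo D0 j (C / γ) x ∧ Cls mo D0 j C z ∧
        Cls mo (DW W pw) j (κ * C * θ) (br z (quad fun n => (W n * pw n) ^ 2))
  quadW : ∀ {ι : Type} [Fintype ι] [DecidableEq ι] (mo : ι → Lat d) (W pw : ι → ℝ),
      (∀ n, 1 ≤ W n) → (∀ n, 1 ≤ pw n) → Cls mo (DW W pw) 2 1 (quad fun n => (W n * pw n) ^ 2)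
  quad_quad : ∀ {ι : Type} [Fintype ι] [DecidableEq ι] (a b : ι → ℝ), br (quad a) (quad b) = 0

theorem nfThm_of {d : ℕ} (r3 : R3 d) : NFThm d := by
  refine ⟨3, ?_⟩
  intro N J hNJ A κ γ hA hκ hγ hγ1 ι _ _ R θ S mo lev fr W pw hM H hH0 hH
  have hJ2 : (2 : ℝ) ≤ J := by
    have : ((N + 2 : ℕ) : ℝ) ≤ (J : ℝ) := by exact_mod_cast hNJ
    push_cast at this
    have h0 : (0 : ℝ) ≤ N := Nat.cast_nonneg N
    linarith
  have hDW : ∀ j I, 0 ≤ DW W pw j I := by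
    intro j I
    unfold DW
    have h1 : ∀ n, 0 ≤ W n := fun n => zero_le_one.trans (hM.one_le_W n)
    have h2 : ∀ n, 0 ≤ pw n := fun n => zero_le_one.trans (hM.one_le_pw n)
    exact mul_nonneg (Finset.prod_nonneg fun l _ => h1 _)
      (Finset.sum_nonneg fun l _ => Finset.sum_nonneg fun l' _ => mul_nonneg (h2 _) (h2 _))
  have hD0 : ∀ j (I : Fin j → ι × Bool), 0 ≤ (D0 : WS ι) j I := fun j I => by
    unfold D0; exact zero_le_one
  set K : ℝ := 2 * κ * J ^ 2 with hK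
  set P : ℕ → ℝ → Pl ι → Prop := fun l C x => l ≤ N → Cls mo D0 (l + 2) C x with hP
  set Q : ℕ → ℝ → Pl ι → Prop := fun l C x => l ≤ N → Cls mo (DW W pw) (l + 2) C x with hQ
  have cP : NF.IsCls P :=
    { zero := fun l _ => r3.zero mo D0 (l + 2)
      mono := fun h1 h2 hl => r3.mono mo D0 hD0 _ _ _ _ h1 (h2 hl)
      add := fun h1 h2 hl => r3.add mo D0 _ _ _ _ _ (h1 hl) (h2 hl)
      smul := fun c h1 hl => r3.smul mo D0 _ _ c _ (h1 hl) }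
  have cQ : NF.IsCls Q :=
    { zero := fun l _ => r3.zero mo (DW W pw) (l + 2)
      mono := fun h1 h2 hl => r3.mono mo (DW W pw) hDW _ _ _ _ h1 (h2 hl)
      add := fun h1 h2 hl => r3.add mo (DW W pw) _ _ _ _ _ (h1 hl) (h2 hl)
      smul := fun c h1 hl => r3.smul mo (DW W pw) _ _ c _ (h1 hl) }
  have hKle : ∀ l l' : ℕ, l + l' ≤ N → 2 * (((l + 1 : ℕ) : ℝ) + 1) * (((l' + 1 : ℕ) : ℝ) + 1) * κ ≤ K := by
    intro l l' h
    have h1 : ((l + 1 : ℕ) : ℝ) + 1 ≤ J := by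
      have : ((l + 1 + 1 : ℕ) : ℝ) ≤ J := by exact_mod_cast (by omega : l + 1 + 1 ≤ J)
      push_cast at this ⊢
      linarith
    have h2 : ((l' + 1 : ℕ) : ℝ) + 1 ≤ J := by
      have : ((l' + 1 + 1 : ℕ) : ℝ) ≤ J := by exact_mod_cast (by omega : l' + 1 + 1 ≤ J)
      push_cast at this ⊢
      linarith
    calc 2 * (((l + 1 : ℕ) : ℝ) + 1) * (((l' + 1 : ℕ) : ℝ) + 1) * κ ≤ 2 * (J : ℝ) * J * κ := by gcongr
      _ = K := by rw [hK]; ring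
  have aPP : NF.Acts br P P K := by
    intro l l' C C' x y hC hC' hx hy hl
    have h1 := r3.br0 mo hM.inj (l + 1) (l' + 1) C C' x y hC hC' (hx (by omega)) (hy (by omega))
    have e : l + 1 + (l' + 1) = l + l' + 2 := by omega
    rw [e] at h1
    refine r3.mono mo D0 hD0 _ _ _ _ ?_ h1
    have h2 := hKle l l' hl
    have h3 : 2 * (((l + 1 : ℕ) : ℝ) + 1) * (((l' + 1 : ℕ) : ℝ) + 1) ≤
        2 * (((l + 1 : ℕ) : ℝ) + 1) * (((l' + 1 : ℕ) : ℝ) + 1) * κ :=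
      le_mul_of_one_le_right (by positivity) hκ
    have h4 := h3.trans h2
    gcongr
  have aPQ : NF.Acts br P Q K := by
    intro l l' C C' x y hC hC' hx hy hl
    have h1 := r3.brW J κ γ R θ S mo lev fr W pw hκ hM (l + 1) (l' + 1) (by omega) (by omega) C C' x y
      hC hC' (hx (by omega)) (hy (by omega))
    have e : l + 1 + (l' + 1) = l + l' + 2 := by omega
    rw [e] at h1
    refine r3.mono mo (DW W pw) hDW _ _ _ _ ?_ h1
    have h2 := hKle l l' hl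
    gcongr
  have hg1 : 1 ≤ κ / γ := by rw [le_div_iff₀ hγ]; linarith
  set B : ℝ := 3 * ((N : ℝ) + 1) * (κ / γ) * A * (2 * κ * J ^ 2) with hB
  have con : NF.Con N K A (κ / γ) B :=
    { K1 := by
        rw [hK]
        have : (1 : ℝ) ≤ J ^ 2 := one_le_pow₀ (by linarith)
        nlinarith
      h1 := hA
      g1 := hg1
      hB := le_of_eq (by rw [hB, hK]) }
  have hHJ : br (H 0) (quad fun n => (W n * pw n) ^ 2) = 0 := by rw [hH0]; exact r3.quad_quad _ _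
  obtain ⟨F, hF0, hF1, hF2⟩ := NF.normal_form isBr cP cQ aPP aPQ con hM.θ_pos.le
    (fun l h1 _ _ => hH l h1) hHJ (fun _ => r3.quadW mo W pw hM.one_le_W hM.one_le_pw)
    (by
      intro l hl C hC x hx
      obtain ⟨u, z, e, hu, hz, hzJ⟩ := r3.hom J κ γ R θ S mo lev fr W pw hκ hγ hM (l + 1 + 2)
        (by omega) (by omega) C hC x (hx (by omega))
      have hg2 : C ≤ κ / γ * C := le_mul_of_one_le_left hC hg1
      refine ⟨u, z, ?_, fun _ => ?_, fun _ => ?_, fun _ => ?_⟩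
      · rw [hH0]; exact e
      · refine r3.mono mo D0 hD0 _ _ _ _ ?_ hu
        rw [div_mul_eq_mul_div]
        exact div_le_div_of_nonneg_right (le_mul_of_one_le_left hC hκ) hγ.le
      · exact r3.mono mo D0 hD0 _ _ _ _ hg2 hz
      · refine r3.mono mo (DW W pw) hDW _ _ _ _ ?_ hzJ
        have : κ ≤ κ / γ := by rw [le_div_iff₀ hγ]; nlinarith
        have := hM.θ_pos.le
        gcongr)
  refine ⟨F, hF0, fun r hr1 hrN => ?_, fun r hrN => ?_⟩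
  · exact r3.mono mo (DW W pw) hDW _ _ _ _ (const_le hNJ hA hκ hγ hγ1 hB hrN) (hF1 r hrN hrN)
  · have h1 := hF2 r hrN hrN
    have e : sbr F H r = (-1 : ℝ) • NF.conv br H F r := by
      unfold sbr NF.conv
      rw [neg_one_smul, ← Finset.sum_neg_distrib, ← Finset.Nat.sum_antidiagonal_swap]
      exact Finset.sum_congr rfl fun p _ => br_antisymm _ _
    rw [e]
    have h2 := r3.smul mo (DW W pw) _ _ (-1) _ h1
    refine r3.mono mo (DW W pw) hDW _ _ _ _ ?_ h2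
    rw [abs_neg, abs_one, one_mul]
    exact mul_le_mul_of_nonneg_right (const_le hNJ hA hκ hγ hγ1 hB hrN) hM.θ_pos.le

end Vale.Agent.P139.BN
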