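import Vale.Agent.P139.R2.H923.FinP

/-! # P139-N: the almost sure bound from the deterministic statement and `NRTail` -/

set_option autoImplicit false

open Filter Topology MeasureTheory Set
open scoped ENNReal NNReal

namespace Vale.Agent.P139.BN

open Vale.Agent.P139.A Vale.Agent.P139.A.WA

theorem finalThm_of_detQ {d : ℕ} (hNR : NRTail) (hdet : DetQ d) : FinalThm d := by
  intro m k hm Ω _ P _ g hm' hg
  obtain ⟨N₀, hN₀⟩ := hNR m hm
  obtain ⟨α₁, hα₁⟩ := hdet m k hm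
  obtain ⟨C, hC, HS⟩ := Vale.Agent.P139.Q836.sum_tail d
  set E : ℕ → Set Ω := fun N =>
    {ω | ¬ ((Summable fun n => ‖g n ω‖ * (Vale.Agent.P139.A.W (2 * d) n)⁻¹) ∧
        ∑' n, ‖g n ω‖ * (Vale.Agent.P139.A.W (2 * d) n)⁻¹ ≤ (2 : ℝ) ^ N)} ∪
      (g 0) ⁻¹' {z : ℂ | ¬ (((2 : ℝ) ^ N)⁻¹ ≤ ‖z‖ ∧ ‖z‖ ≤ (2 : ℝ) ^ N ∧
        NonRes N (m * ‖z‖ ^ (2 * m)))} with hE
  have hPE : ∀ N, N₀ ≤ N → P (E N) ≤ ENNReal.ofReal ((C + 1) * (1 / 2 : ℝ) ^ N) := by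
    intro N hN
    have h1 := HS P g hm' hg ((2 : ℝ) ^ N) (by positivity)
    have h2 : P ((g 0) ⁻¹' {z : ℂ | ¬ (((2 : ℝ) ^ N)⁻¹ ≤ ‖z‖ ∧ ‖z‖ ≤ (2 : ℝ) ^ N ∧
          NonRes N (m * ‖z‖ ^ (2 * m)))}) ≤ ENNReal.ofReal ((2 : ℝ) ^ N)⁻¹ := by
      refine (Measure.le_map_apply (hm' 0).aemeasurable _).trans ?_
      rw [hg 0]
      exact hN₀ N hN
    refine ((measure_union_le _ _).trans ((add_le_add h1 h2).trans ?_))
    have hC0 : 0 ≤ C / (2 : ℝ) ^ N := by positivity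
    rw [← ENNReal.ofReal_add hC0 (by positivity)]
    refine ENNReal.ofReal_le_ofReal (le_of_eq ?_)
    rw [one_div, inv_pow]
    ring
  have hsum : ∑' N, P (E (N + N₀)) ≠ ∞ := by
    refine ne_top_of_le_ne_top ?_ (ENNReal.tsum_le_tsum fun N => hPE (N + N₀) (by omega))
    rw [← ENNReal.ofReal_tsum_of_nonneg (fun N => by positivity)]
    · exact ENNReal.ofReal_ne_top
    · simp_rw [pow_add, ← mul_assoc]
      exact (((summable_geometric_of_lt_one (by norm_num) (by norm_num)).mul_left _).mul_right _)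
  filter_upwards [ae_eventually_notMem hsum] with ω hω
  obtain ⟨N₁, hN₁⟩ := eventually_atTop.1 hω
  obtain ⟨α₂, hα₂⟩ := (NN_tendsto.eventually_ge_atTop (N₁ + N₀)).exists_forall_of_atTop
  refine ⟨max α₁ α₂, fun α hα => ?_⟩
  have hN := hα₂ α ((le_max_right _ _).trans hα)
  have hmem := hN₁ (NN α - N₀) (by omega)
  rw [Nat.sub_add_cancel (by omega)] at hmem
  rw [hE] at hmem
  simp only [mem_union, not_or] at hmem
  obtain ⟨c1, c2⟩ := hmem
  rw [mem_setOf_eq, not_not] at c1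
  rw [mem_preimage, mem_setOf_eq, not_not] at c2
  exact hα₁ α ((le_max_left _ _).trans hα) (fun n => g n ω) c2.1 c2.2.1 c2.2.2 c1.1 c1.2

end Vale.Agent.P139.BN
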