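import Vale.Agent.P139.R2.H999.Tr

/-! # Normal form to finite order with explicit constants -/

namespace Vale.Agent.P139.NF

open Finset

variable {L : Type*} [AddCommGroup L] [Module ℝ L] {b : L → L → L}

/-- a graded family of classes with constants -/
structure IsCls (Q : ℕ → ℝ → L → Prop) : Prop where
  zero : ∀ l, Q l 0 0
  mono : ∀ {l : ℕ} {C C' : ℝ} {x : L}, C ≤ C' → Q l C x → Q l C' x
  add : ∀ {l : ℕ} {C C' : ℝ} {x y : L}, Q l C x → Q l C' y → Q l (C + C') (x + y)
  smul : ∀ {l : ℕ} {C : ℝ} {x : L} (c : ℝ), Q l C x → Q l (|c| * C) (c • x)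

/-- the bracket of the class `P` acts on the class `Q` -/
def Acts (b : L → L → L) (P Q : ℕ → ℝ → L → Prop) (K : ℝ) : Prop :=
  ∀ (l l' : ℕ) (C C' : ℝ) (x y : L), 0 ≤ C → 0 ≤ C' → P l C x → Q l' C' y →
    Q (l + l') (K * C * C') (b x y)

variable {P Q : ℕ → ℝ → L → Prop} {K : ℝ}

theorem IsCls.sum (hQ : IsCls Q) {l : ℕ} {ι : Type*} (s : Finset ι) {C : ι → ℝ} {x : ι → L}
    (h : ∀ k ∈ s, Q l (C k) (x k)) : Q l (∑ k ∈ s, C k) (∑ k ∈ s, x k) := by
  classical
  induction s using Finset.induction_on with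
  | empty => simpa using hQ.zero l
  | insert a s ha ih =>
    rw [Finset.sum_insert ha, Finset.sum_insert ha]
    exact hQ.add (h a (by simp)) (ih fun k hk => h k (by simp [hk]))

/-- sums over an antidiagonal with a uniform bound -/
theorem IsCls.sumA (hQ : IsCls Q) {l n : ℕ} {C : ℝ} {x : ℕ × ℕ → L}
    (h : ∀ p ∈ antidiagonal n, Q l C (x p)) :
    Q l (((n : ℝ) + 1) * C) (∑ p ∈ antidiagonal n, x p) := by
  have := hQ.sum (antidiagonal n) h
  rwa [Finset.sum_const, Finset.Nat.card_antidiagonal, nsmul_eq_mul, Nat.cast_add, Nat.cast_one] at this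

theorem IsCls.neg (hQ : IsCls Q) {l : ℕ} {C : ℝ} {x : L} (h : Q l C x) : Q l C (-x) := by
  have := hQ.smul (-1) h
  simpa using this

theorem IsCls.sub (hQ : IsCls Q) {l : ℕ} {C C' : ℝ} {x y : L} (h : Q l C x) (h' : Q l C' y) :
    Q l (C + C') (x - y) := by
  rw [sub_eq_add_neg]
  exact hQ.add h (hQ.neg h')

theorem IsCls.inv_smul (hQ : IsCls Q) {l : ℕ} {C : ℝ} {x : L} (hC : 0 ≤ C) (n : ℕ) (h : Q l C x) :
    Q l C (((n : ℝ) + 1)⁻¹ • x) := by
  refine hQ.mono ?_ (hQ.smul _ h)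
  have h1 : (1 : ℝ) ≤ (n : ℝ) + 1 := by
    have := Nat.cast_nonneg (α := ℝ) n
    linarith
  rw [abs_of_nonneg (by positivity)]
  have h2 : ((n : ℝ) + 1)⁻¹ ≤ 1 := inv_le_one_of_one_le₀ h1
  nlinarith

/-- the hypotheses on the constants -/
structure Con (N : ℕ) (K h g B : ℝ) : Prop where
  K1 : 1 ≤ K
  h1 : 1 ≤ h
  g1 : 1 ≤ g
  hB : 3 * ((N : ℝ) + 1) * g * h * K ≤ B

namespace Con

variable {N : ℕ} {h g B : ℝ}

theorem B1 (c : Con N K h g B) : 1 ≤ B := by
  have h1 := c.K1; have h2 := c.h1; have h3 := c.g1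
  have h4 : (1 : ℝ) ≤ (N : ℝ) + 1 := by have := Nat.cast_nonneg (α := ℝ) N; linarith
  have h5 : 1 ≤ ((N : ℝ) + 1) * g := one_le_mul_of_one_le_of_one_le h4 h3
  have h6 : 1 ≤ ((N : ℝ) + 1) * g * h := one_le_mul_of_one_le_of_one_le h5 h2
  have h7 : 1 ≤ ((N : ℝ) + 1) * g * h * K := one_le_mul_of_one_le_of_one_le h6 h1
  have := c.hB
  nlinarith

/-- `(l + 1) x ≤ B / 3` for the products `x` of the constants -/
theorem le3 (c : Con N K h g B) {l : ℕ} (hl : l ≤ N) : ((l : ℝ) + 1) * (g * h * K) ≤ B / 3 := by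
  have h1 := c.K1; have h2 := c.h1; have h3 := c.g1
  have h4 : (l : ℝ) ≤ N := by exact_mod_cast hl
  have h5 : 0 ≤ g * h * K := by positivity
  have h6 : ((l : ℝ) + 1) * (g * h * K) ≤ ((N : ℝ) + 1) * (g * h * K) :=
    mul_le_mul_of_nonneg_right (by linarith) h5
  have := c.hB
  linarith

theorem leK (c : Con N K h g B) {l : ℕ} (hl : l ≤ N) : ((l : ℝ) + 1) * K ≤ B / 3 := by
  have h1 := c.K1; have h2 := c.h1; have h3 := c.g1
  refine le_trans ?_ (c.le3 hl)
  have h4 : 1 ≤ g * h := one_le_mul_of_one_le_of_one_le h3 h2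
  have h5 : (0 : ℝ) ≤ (l : ℝ) + 1 := by positivity
  refine mul_le_mul_of_nonneg_left ?_ h5
  nlinarith

theorem le1 (c : Con N K h g B) {l : ℕ} (hl : l ≤ N) : ((l : ℝ) + 1) ≤ B / 3 := by
  refine le_trans ?_ (c.leK hl)
  have h1 := c.K1
  have h5 : (0 : ℝ) ≤ (l : ℝ) + 1 := by positivity
  nlinarith

theorem leg (c : Con N K h g B) {l : ℕ} (hl : l ≤ N) : ((l : ℝ) + 1) * g ≤ B / 3 := by
  have h1 := c.K1; have h2 := c.h1; have h3 := c.g1
  refine le_trans ?_ (c.le3 hl)
  have h4 : 1 ≤ h * K := one_le_mul_of_one_le_of_one_le h2 h1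
  have h5 : (0 : ℝ) ≤ (l : ℝ) + 1 := by positivity
  refine mul_le_mul_of_nonneg_left ?_ h5
  nlinarith

theorem legh (c : Con N K h g B) {l : ℕ} (hl : l ≤ N) : ((l : ℝ) + 1) * (g * h) ≤ B / 3 := by
  have h1 := c.K1; have h2 := c.h1; have h3 := c.g1
  refine le_trans ?_ (c.le3 hl)
  have h5 : (0 : ℝ) ≤ (l : ℝ) + 1 := by positivity
  have h6 : 0 ≤ g * h := by positivity
  refine mul_le_mul_of_nonneg_left ?_ h5
  nlinarith

end Con

variable {N : ℕ} {h g B : ℝ}

theorem Tr_bound (hQ : IsCls Q) (hPQ : Acts b P Q K) (c : Con N K h g B) {χ : ℕ → L}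
    {n : ℕ} (hn : n ≤ N) (hχ : ∀ j < n, P (j + 1) (B ^ ((j + 1) ^ 2)) (χ j)) {q : ℕ} {C : ℝ}
    (hC : 0 ≤ C) {X : L} (hX : Q q C X) :
    ∀ l ≤ n, Q (q + l) (B ^ (l ^ 2 + l) * C) (Tr b χ X l) := by
  have hB := c.B1
  have hB0 : 0 ≤ B := zero_le_one.trans hB
  have hK := c.K1
  intro l
  induction l using Nat.strong_induction_on with
  | _ l ih =>
    intro hl
    rcases l with _ | l
    · rw [Tr_zero]
      simpa using hX
    · rw [Tr_succ]
      have h2 : Q (q + (l + 1)) (((l : ℝ) + 1) * (K * B ^ ((l + 1) ^ 2) * C))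
          (conv b χ (Tr b χ X) l) := by
        unfold conv
        refine hQ.sumA fun p hp => ?_
        have hp' := mem_antidiagonal.1 hp
        have h3 := hPQ _ _ _ _ _ _ (by positivity) (by positivity) (hχ p.1 (by omega))
          (ih p.2 (by omega) (by omega))
        have e : p.1 + 1 + (q + p.2) = q + (l + 1) := by omega
        rw [e] at h3
        refine hQ.mono ?_ h3
        have e2 : (p.1 + 1) ^ 2 + (p.2 ^ 2 + p.2) ≤ (l + 1) ^ 2 := by
          have : l + 1 = (p.1 + 1) + p.2 := by omega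
          rw [this]; nlinarith [Nat.zero_le (p.1 * p.2), Nat.zero_le p.2]
        calc K * B ^ ((p.1 + 1) ^ 2) * (B ^ (p.2 ^ 2 + p.2) * C)
            = K * B ^ ((p.1 + 1) ^ 2 + (p.2 ^ 2 + p.2)) * C := by rw [pow_add]; ring
          _ ≤ K * B ^ ((l + 1) ^ 2) * C := by
            gcongr
      refine hQ.mono ?_ (hQ.inv_smul (by positivity) l h2)
      have h4 : ((l : ℝ) + 1) * K ≤ B := by
        have := c.leK (l := l) (by omega)
        linarith
      calc ((l : ℝ) + 1) * (K * B ^ ((l + 1) ^ 2) * C)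
          = (((l : ℝ) + 1) * K) * (B ^ ((l + 1) ^ 2) * C) := by ring
        _ ≤ B * (B ^ ((l + 1) ^ 2) * C) := by gcongr
        _ = B ^ ((l + 1) ^ 2 + 1) * C := by rw [pow_succ]; ring
        _ ≤ B ^ ((l + 1) ^ 2 + (l + 1)) * C := by
          gcongr
          omega

/-- the recursive construction of the generator -/
theorem exists_gen (hb : IsBr b) (hP : IsCls P) (hQ : IsCls Q) (hPP : Acts b P P K)
    (c : Con N K h g B) {θ : ℝ} (hθ : 0 ≤ θ) {H : ℕ → L} {J : L}
    (hH : ∀ l, 1 ≤ l → l ≤ N → P l h (H l))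
    (hom : ∀ l < N, ∀ C, 0 ≤ C → ∀ R, P (l + 1) C R → ∃ x z, R = b x (H 0) + z ∧
      P (l + 1) (g * C) x ∧ P (l + 1) (g * C) z ∧ Q (l + 1) (g * C * θ) (b z J)) :
    ∀ n ≤ N, ∃ χ Z : ℕ → L, (∀ l < n, dS H l = conv b χ H l + TrS b χ Z l) ∧
      (∀ l, n ≤ l → χ l = 0 ∧ Z l = 0) ∧
      ∀ l, P (l + 1) (B ^ ((l + 1) ^ 2)) (χ l) ∧ P (l + 1) (B ^ ((l + 1) ^ 2)) (Z l) ∧
        Q (l + 1) (B ^ ((l + 1) ^ 2) * θ) (b (Z l) J) := by
  have hB := c.B1
  have hB0 : 0 ≤ B := zero_le_one.trans hB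
  have hK := c.K1
  have hh := c.h1
  have hg := c.g1
  intro n
  induction n with
  | zero =>
    intro _
    refine ⟨fun _ => 0, fun _ => 0, fun l hl => absurd hl (Nat.not_lt_zero l), fun _ _ => ⟨rfl, rfl⟩,
      fun l => ?_⟩
    rw [hb.zeroL]
    exact ⟨hP.mono (by positivity) (hP.zero _), hP.mono (by positivity) (hP.zero _),
      hQ.mono (by positivity) (hQ.zero _)⟩
  | succ n ih =>
    intro hn
    obtain ⟨χ, Z, h1, h2, h3⟩ := ih (by omega)
    -- the right hand side of the homological equation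
    set R : L := dS H n - conv b χ H n - TrS b χ Z n with hR
    set r : ℝ := ((n : ℝ) + 1) * h + ((n : ℝ) + 1) * (K * B ^ (n ^ 2) * h) +
      ((n : ℝ) + 1) * B ^ (n ^ 2 + 2 * n) with hr
    have hr0 : 0 ≤ r := by positivity
    have hRP : P (n + 1) r R := by
      have k1 : P (n + 1) (((n : ℝ) + 1) * h) (dS H n) := by
        have := hP.smul ((n : ℝ) + 1) (hH (n + 1) (by omega) hn)
        rwa [abs_of_nonneg (by positivity)] at this
      have k2 : P (n + 1) (((n : ℝ) + 1) * (K * B ^ (n ^ 2) * h)) (conv b χ H n) := by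
        unfold conv
        refine hP.sumA fun p hp => ?_
        have hp' := mem_antidiagonal.1 hp
        by_cases hpn : p.1 = n
        · rw [(h2 p.1 (by omega)).1, hb.zeroL]
          exact hP.mono (by positivity) (hP.zero _)
        · have h4 := hPP _ _ _ _ _ _ (by positivity) (by positivity) (h3 p.1).1
            (hH p.2 (by omega) (by omega))
          have e : p.1 + 1 + p.2 = n + 1 := by omega
          rw [e] at h4
          refine hP.mono ?_ h4
          gcongr
          omega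
      have k3 : P (n + 1) (((n : ℝ) + 1) * B ^ (n ^ 2 + 2 * n)) (TrS b χ Z n) := by
        unfold TrS
        refine hP.sumA fun p hp => ?_
        have hp' := mem_antidiagonal.1 hp
        have hχ' : ∀ j < n, P (j + 1) (B ^ ((j + 1) ^ 2)) (χ j) := fun j _ => (h3 j).1
        by_cases hpn : p.1 = n
        · have hz : p.2 = 0 := by omega
          rw [(h2 p.1 (by omega)).2, hz, Tr_zero]
          exact hP.mono (by positivity) (hP.zero _)
        · have h4 := Tr_bound hP hPP c (by omega : n ≤ N) hχ' (by positivity)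
            (h3 p.1).2.1 p.2 (by omega)
          have e : p.1 + 1 + p.2 = n + 1 := by omega
          rw [e] at h4
          refine hP.mono ?_ h4
          rw [← pow_add]
          refine pow_le_pow_right₀ hB ?_
          have : n = p.1 + p.2 := by omega
          rw [this]
          have h5 : 1 ≤ p.2 := by omega
          nlinarith [Nat.zero_le (p.1 * p.2), Nat.zero_le p.1]
      exact hP.sub (hP.sub k1 k2) k3
    obtain ⟨x, z, e, hx, hz, hzJ⟩ := hom n (by omega) r hr0 R hRP
    have hle2 : g * r ≤ B ^ ((n + 1) ^ 2) := by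
      have e1 : (n + 1) ^ 2 = (n ^ 2 + 2 * n) + 1 := by ring
      have hp : (1 : ℝ) ≤ B ^ (n ^ 2 + 2 * n) := one_le_pow₀ hB
      have hp2 : B ^ (n ^ 2) ≤ B ^ (n ^ 2 + 2 * n) := pow_le_pow_right₀ hB (by omega)
      have c1 := c.legh (l := n) (by omega)
      have c2 := c.le3 (l := n) (by omega)
      have c3 := c.leg (l := n) (by omega)
      rw [e1, pow_succ]
      have t1 : g * (((n : ℝ) + 1) * h) ≤ B / 3 * B ^ (n ^ 2 + 2 * n) := by
        calc g * (((n : ℝ) + 1) * h) = (((n : ℝ) + 1) * (g * h)) * 1 := by ring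
          _ ≤ B / 3 * B ^ (n ^ 2 + 2 * n) := by gcongr
      have t2 : g * (((n : ℝ) + 1) * (K * B ^ (n ^ 2) * h)) ≤ B / 3 * B ^ (n ^ 2 + 2 * n) := by
        calc g * (((n : ℝ) + 1) * (K * B ^ (n ^ 2) * h)) =
            (((n : ℝ) + 1) * (g * h * K)) * B ^ (n ^ 2) := by ring
          _ ≤ B / 3 * B ^ (n ^ 2 + 2 * n) := by gcongr
      have t3 : g * (((n : ℝ) + 1) * B ^ (n ^ 2 + 2 * n)) ≤ B / 3 * B ^ (n ^ 2 + 2 * n) := by
        calc g * (((n : ℝ) + 1) * B ^ (n ^ 2 + 2 * n)) =
            (((n : ℝ) + 1) * g) * B ^ (n ^ 2 + 2 * n) := by ring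
          _ ≤ B / 3 * B ^ (n ^ 2 + 2 * n) := by gcongr
      rw [hr]
      linarith
    refine ⟨Function.update χ n x, Function.update Z n z, fun l hl => ?_, fun l hl => ?_, fun l => ?_⟩
    · have hcT : ∀ X : L, ∀ k ≤ n, Tr b (Function.update χ n x) X k = Tr b χ X k := fun X k hk =>
        Tr_congr (n := n) (fun j hj => Function.update_of_ne (Nat.ne_of_lt hj) _ _) k hk
      rcases Nat.lt_or_ge l n with hln | hln
      · have e1 : conv b (Function.update χ n x) H l = conv b χ H l :=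
          conv_congr (fun k hk => Function.update_of_ne (by omega) _ _) fun _ _ => rfl
        have e2 : TrS b (Function.update χ n x) (Function.update Z n z) l = TrS b χ Z l := by
          unfold TrS
          refine Finset.sum_congr rfl fun p hp => ?_
          have hp' := mem_antidiagonal.1 hp
          rw [Function.update_of_ne (by omega), hcT _ _ (by omega)]
        rw [e1, e2]
        exact h1 l hln
      · obtain rfl : l = n := by omega
        have e1 : conv b (Function.update χ l x) H l = conv b χ H l + b x (H 0) := by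
          have e3 : conv b χ H l + b x (H 0) = conv b χ H l +
              ∑ p ∈ antidiagonal l, if p = (l, 0) then b x (H 0) else 0 := by
            rw [Finset.sum_ite_eq' (antidiagonal l) (l, 0), if_pos (by simp)]
          rw [e3]
          unfold conv
          rw [← Finset.sum_add_distrib]
          refine Finset.sum_congr rfl fun p hp => ?_
          have hp' := mem_antidiagonal.1 hp
          by_cases hpl : p.1 = l
          · have h0 : p.2 = 0 := by omega
            have hpe : p = (l, 0) := Prod.ext hpl h0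
            rw [if_pos hpe, hpe]
            simp only [Function.update_self]
            rw [(h2 l le_rfl).1, hb.zeroL, zero_add]
          · rw [if_neg (fun h5 => hpl (congrArg Prod.fst h5)), add_zero,
              Function.update_of_ne hpl]
        have e2 : TrS b (Function.update χ l x) (Function.update Z l z) l = TrS b χ Z l + z := by
          have e3 : TrS b χ Z l + z = TrS b χ Z l +
              ∑ p ∈ antidiagonal l, if p = (l, 0) then z else 0 := by
            rw [Finset.sum_ite_eq' (antidiagonal l) (l, 0), if_pos (by simp)]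
          rw [e3]
          unfold TrS
          rw [← Finset.sum_add_distrib]
          refine Finset.sum_congr rfl fun p hp => ?_
          have hp' := mem_antidiagonal.1 hp
          rw [hcT _ _ (by omega)]
          by_cases hpl : p.1 = l
          · have h0 : p.2 = 0 := by omega
            have hpe : p = (l, 0) := Prod.ext hpl h0
            rw [if_pos hpe, hpe]
            simp only [Function.update_self, Tr_zero]
            rw [(h2 l le_rfl).2, zero_add]
          · rw [if_neg (fun h5 => hpl (congrArg Prod.fst h5)), add_zero,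
              Function.update_of_ne hpl]
        rw [e1, e2]
        have e4 : dS H l = conv b χ H l + TrS b χ Z l + R := by rw [hR]; abel
        rw [e4, e]
        abel
    · rw [Function.update_of_ne (by omega), Function.update_of_ne (by omega)]
      exact h2 l (by omega)
    · by_cases hl : l = n
      · rw [hl, Function.update_self, Function.update_self]
        exact ⟨hP.mono hle2 hx, hP.mono hle2 hz, hQ.mono (mul_le_mul_of_nonneg_right hle2 hθ) hzJ⟩
      · rw [Function.update_of_ne hl, Function.update_of_ne hl]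
        exact h3 l

/-- bounds of the commutator of the almost conserved quantity -/
theorem D_bound (hb : IsBr b) (hQ : IsCls Q) (hPQ : Acts b P Q K) (c : Con N K h g B)
    {θ : ℝ} (hθ : 0 ≤ θ) {H χ Z : ℕ → L} {J : L}
    (hJ : b (H 0) J = 0) (h1 : ∀ l < N, dS H l = conv b χ H l + TrS b χ Z l)
    (h3 : ∀ l, P (l + 1) (B ^ ((l + 1) ^ 2)) (χ l) ∧
      Q (l + 1) (B ^ ((l + 1) ^ 2) * θ) (b (Z l) J)) :
    ∀ l ≤ N, Q l (B ^ (l ^ 2 + l) * θ) (conv b H (Tr b χ J) l) := by
  have hB := c.B1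
  have hB0 : 0 ≤ B := zero_le_one.trans hB
  have hK := c.K1
  intro l
  induction l using Nat.strong_induction_on with
  | _ l ih =>
  intro hl
  rcases l with _ | l
  · have e : conv b H (Tr b χ J) 0 = 0 := by
      unfold conv
      rw [Finset.Nat.antidiagonal_zero, Finset.sum_singleton, Tr_zero, hJ]
    rw [e]
    exact hQ.mono (by positivity) (hQ.zero 0)
  · have e := deprit hb h1 J l (by omega)
    have hne : ((l : ℝ) + 1) ≠ 0 := by positivity
    have e2 : conv b H (Tr b χ J) (l + 1) = ((l : ℝ) + 1)⁻¹ •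
        (conv b χ (conv b H (Tr b χ J)) l + TrS b χ (fun i => b (Z i) J) l) := by
      rw [← e]
      unfold dS
      rw [smul_smul, inv_mul_cancel₀ hne, one_smul]
    rw [e2]
    have hexp : ∀ p : ℕ × ℕ, p.1 + p.2 = l → (p.1 + 1) ^ 2 + (p.2 ^ 2 + p.2) ≤ (l + 1) ^ 2 := by
      intro p hp
      have : l + 1 = (p.1 + 1) + p.2 := by omega
      rw [this]; nlinarith [Nat.zero_le (p.1 * p.2), Nat.zero_le p.2]
    have h4 : Q (l + 1) (((l : ℝ) + 1) * (K * B ^ ((l + 1) ^ 2) * θ))
        (conv b χ (conv b H (Tr b χ J)) l) := by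
      rw [conv]
      refine hQ.sumA fun p hp => ?_
      have hp' := mem_antidiagonal.1 hp
      have h5 := hPQ _ _ _ _ _ _ (by positivity) (by positivity) (h3 p.1).1
        (ih p.2 (by omega) (by omega))
      have e3 : p.1 + 1 + p.2 = l + 1 := by omega
      rw [e3] at h5
      refine hQ.mono ?_ h5
      calc K * B ^ ((p.1 + 1) ^ 2) * (B ^ (p.2 ^ 2 + p.2) * θ)
          = K * B ^ ((p.1 + 1) ^ 2 + (p.2 ^ 2 + p.2)) * θ := by rw [pow_add]; ring
        _ ≤ K * B ^ ((l + 1) ^ 2) * θ := by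
          gcongr
          exact hexp p hp'
    have h6 : Q (l + 1) (((l : ℝ) + 1) * (B ^ ((l + 1) ^ 2) * θ))
        (TrS b χ (fun i => b (Z i) J) l) := by
      unfold TrS
      refine hQ.sumA fun p hp => ?_
      have hp' := mem_antidiagonal.1 hp
      have hχ' : ∀ j < l, P (j + 1) (B ^ ((j + 1) ^ 2)) (χ j) := fun j _ => (h3 j).1
      have h7 := Tr_bound hQ hPQ c (by omega : l ≤ N) hχ' (by positivity) (h3 p.1).2 p.2 (by omega)
      have e3 : p.1 + 1 + p.2 = l + 1 := by omega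
      rw [e3] at h7
      refine hQ.mono ?_ h7
      calc B ^ (p.2 ^ 2 + p.2) * (B ^ ((p.1 + 1) ^ 2) * θ)
          = B ^ ((p.1 + 1) ^ 2 + (p.2 ^ 2 + p.2)) * θ := by rw [pow_add]; ring
        _ ≤ B ^ ((l + 1) ^ 2) * θ := by
          gcongr
          exact hexp p hp'
    refine hQ.mono ?_ (hQ.inv_smul (by positivity) l (hQ.add h4 h6))
    have c1 := c.leK (l := l) (by omega)
    have c2 := c.le1 (l := l) (by omega)
    calc ((l : ℝ) + 1) * (K * B ^ ((l + 1) ^ 2) * θ) + ((l : ℝ) + 1) * (B ^ ((l + 1) ^ 2) * θ)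
        = (((l : ℝ) + 1) * K + ((l : ℝ) + 1)) * (B ^ ((l + 1) ^ 2) * θ) := by ring
      _ ≤ B * (B ^ ((l + 1) ^ 2) * θ) := by
        gcongr
        linarith
      _ = B ^ ((l + 1) ^ 2 + 1) * θ := by rw [pow_succ]; ring
      _ ≤ B ^ ((l + 1) ^ 2 + (l + 1)) * θ := by
        gcongr
        omega

/-- **Normal form.** -/
theorem normal_form (hb : IsBr b) (hP : IsCls P) (hQ : IsCls Q) (hPP : Acts b P P K)
    (hPQ : Acts b P Q K) (c : Con N K h g B) {θ : ℝ} (hθ : 0 ≤ θ)
    {H : ℕ → L} {J : L} (hH : ∀ l, 1 ≤ l → l ≤ N → P l h (H l)) (hHJ : b (H 0) J = 0) (hJ : Q 0 1 J)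
    (hom : ∀ l < N, ∀ C, 0 ≤ C → ∀ R, P (l + 1) C R → ∃ x z, R = b x (H 0) + z ∧
      P (l + 1) (g * C) x ∧ P (l + 1) (g * C) z ∧ Q (l + 1) (g * C * θ) (b z J)) :
    ∃ F : ℕ → L, F 0 = J ∧ (∀ l ≤ N, Q l (B ^ (l ^ 2 + l)) (F l)) ∧
      ∀ l ≤ N, Q l (B ^ (l ^ 2 + l) * θ) (conv b H F l) := by
  obtain ⟨χ, Z, h1, -, h3⟩ := exists_gen hb hP hQ hPP c hθ hH hom N le_rfl
  refine ⟨Tr b χ J, Tr_zero _ _, fun l hl => ?_, fun l hl => ?_⟩
  · have hχ' : ∀ j < N, P (j + 1) (B ^ ((j + 1) ^ 2)) (χ j) := fun j _ => (h3 j).1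
    have := Tr_bound hQ hPQ c le_rfl hχ' zero_le_one hJ l hl
    rwa [mul_one, zero_add] at this
  · exact D_bound hb hQ hPQ c hθ hHJ h1 (fun l => ⟨(h3 l).1, (h3 l).2.2⟩) l hl

end Vale.Agent.P139.NF
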