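import Mathlib.RingTheory.Derivation.Lie
import Vale.Agent.P139.R2.H556.Defs
import Vale.Agent.P139.R2.H999.Nf

/-! # The bracket is a Lie bracket -/

open MvPolynomial

namespace Vale.Agent.P139.BN

variable {ι : Type} [Fintype ι]

theorem pderiv_comm' {σ : Type} (x y : σ) (P : MvPolynomial σ ℂ) :
    pderiv x (pderiv y P) = pderiv y (pderiv x P) := by
  classical
  have h : ⁅(pderiv x : Derivation ℂ (MvPolynomial σ ℂ) (MvPolynomial σ ℂ)),
      (pderiv y : Derivation ℂ (MvPolynomial σ ℂ) (MvPolynomial σ ℂ))⁆ = 0 := by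
    refine derivation_ext fun i => ?_
    rw [Derivation.commutator_apply, pderiv_X, pderiv_X]
    simp only [Pi.single_apply]
    split_ifs <;> simp
  have h2 := DFunLike.congr_fun h P
  rw [Derivation.commutator_apply] at h2
  exact sub_eq_zero.1 h2

omit [Fintype ι] in
theorem der_sum_apply {κ : Type*} (s : Finset κ) (D : κ → Derivation ℂ (Pl ι) (Pl ι)) (Q : Pl ι) :
    (∑ k ∈ s, D k) Q = ∑ k ∈ s, D k Q := by
  have h := congrFun (map_sum (Derivation.coeFnAddMonoidHom (R := ℂ) (A := Pl ι) (M := Pl ι)) D s) Q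
  rw [Finset.sum_apply] at h
  exact h

/-- the Hamiltonian derivation of `P` -/
noncomputable def ham (P : Pl ι) : Derivation ℂ (Pl ι) (Pl ι) :=
  ∑ n : ι, ((pderiv (n, true) P) • pderiv (n, false) - (pderiv (n, false) P) • pderiv (n, true))

theorem ham_apply (P Q : Pl ι) : ham P Q = br P Q := by
  unfold ham br
  rw [der_sum_apply]
  refine Finset.sum_congr rfl fun n _ => ?_
  rw [Derivation.sub_apply, Derivation.smul_apply, Derivation.smul_apply, smul_eq_mul, smul_eq_mul]

theorem br_antisymm (P Q : Pl ι) : br P Q = -br Q P := by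
  unfold br
  rw [← Finset.sum_neg_distrib]
  exact Finset.sum_congr rfl fun n _ => by ring

theorem br_add_right (P Q R : Pl ι) : br P (Q + R) = br P Q + br P R := by
  simp only [← ham_apply, map_add]

theorem br_smul_right (c : ℂ) (P Q : Pl ι) : br P (c • Q) = c • br P Q := by
  simp only [← ham_apply, Derivation.map_smul]

theorem br_smul_left (c : ℂ) (P Q : Pl ι) : br (c • P) Q = c • br P Q := by
  rw [br_antisymm, br_smul_right, br_antisymm Q P, smul_neg, neg_neg]

theorem br_sum_right {κ : Type*} (s : Finset κ) (P : Pl ι) (Q : κ → Pl ι) :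
    br P (∑ k ∈ s, Q k) = ∑ k ∈ s, br P (Q k) := by
  simp only [← ham_apply, map_sum]

theorem br_sum_left {κ : Type*} (s : Finset κ) (P : Pl ι) (Q : κ → Pl ι) :
    br (∑ k ∈ s, Q k) P = ∑ k ∈ s, br (Q k) P := by
  rw [br_antisymm, br_sum_right, ← Finset.sum_neg_distrib]
  exact Finset.sum_congr rfl fun k _ => (br_antisymm _ _).symm

/-- Leibniz rule -/
theorem br_mul_right (P Q R : Pl ι) : br P (Q * R) = Q * br P R + R * br P Q := by
  simp only [← ham_apply, Derivation.leibniz, smul_eq_mul]

theorem br_X_false (P : Pl ι) (n : ι) : br P (X (n, false)) = pderiv (n, true) P := by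
  classical
  unfold br
  rw [Finset.sum_eq_single n]
  · rw [pderiv_X_self, pderiv_X_of_ne (by simp), mul_one, mul_zero, sub_zero]
  · intro m _ hm
    rw [pderiv_X_of_ne (by simp [Ne.symm hm]), pderiv_X_of_ne (by simp), mul_zero, mul_zero, sub_zero]
  · intro h; exact absurd (Finset.mem_univ n) h

theorem br_X_true (P : Pl ι) (n : ι) : br P (X (n, true)) = -pderiv (n, false) P := by
  classical
  unfold br
  rw [Finset.sum_eq_single n]
  · rw [pderiv_X_self, pderiv_X_of_ne (by simp), mul_one, mul_zero, zero_sub]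
  · intro m _ hm
    rw [pderiv_X_of_ne (by simp), pderiv_X_of_ne (by simp [Ne.symm hm]), mul_zero, mul_zero, sub_zero]
  · intro h; exact absurd (Finset.mem_univ n) h

theorem pderiv_br (x : ι × Bool) (P Q : Pl ι) :
    pderiv x (br P Q) = br (pderiv x P) Q + br P (pderiv x Q) := by
  unfold br
  rw [map_sum, ← Finset.sum_add_distrib]
  refine Finset.sum_congr rfl fun n _ => ?_
  rw [map_sub, pderiv_mul, pderiv_mul, pderiv_comm' x (n, true) P, pderiv_comm' x (n, false) P,
    pderiv_comm' x (n, true) Q, pderiv_comm' x (n, false) Q]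
  ring

/-- **Jacobi identity** -/
theorem br_jacobi (P Q R : Pl ι) : br P (br Q R) = br (br P Q) R + br Q (br P R) := by
  classical
  have h : ⁅ham P, ham Q⁆ = ham (br P Q) := by
    refine derivation_ext fun x => ?_
    obtain ⟨n, b⟩ := x
    rw [Derivation.commutator_apply]
    simp only [ham_apply]
    cases b
    · rw [br_X_false, br_X_false, br_X_false, pderiv_br, br_antisymm Q (pderiv (n, true) P)]
      ring
    · rw [br_X_true, br_X_true, br_X_true, pderiv_br, ← ham_apply P, ← ham_apply Q, map_neg, map_neg,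
        ham_apply, ham_apply, br_antisymm Q (pderiv (n, false) P)]
      ring
  have h2 := DFunLike.congr_fun h R
  rw [Derivation.commutator_apply] at h2
  simp only [ham_apply] at h2
  rw [← h2]
  ring

theorem isBr : NF.IsBr (br (ι := ι)) where
  addR := br_add_right
  smulR c x y := by
    rw [← algebraMap_smul ℂ c y, ← algebraMap_smul ℂ c (br x y), br_smul_right]
  anti := br_antisymm
  jac := br_jacobi

end Vale.Agent.P139.BN
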