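import Vale.Agent.P139.R2.H182.FinD
import Vale.Agent.P139.R2.H556.Defs2
import Vale.Agent.P139.H203.Main

/-! # The final statement from the rows -/

open Set MeasureTheory ProbabilityTheory
open scoped ENNReal

namespace Vale.Agent.P139.BN

open Vale.Agent.P139.A

/-- almost sure bound -/
theorem final_ae {d p k : ℕ} (hF : FinalThm d) (hp : Odd p) (hp3 : 3 ≤ p) (Ω : Type)
    [MeasurableSpace Ω] (P : Measure Ω) [IsProbabilityMeasure P] (g : (Fin d → ℤ) → Ω → ℂ)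
    (hm : ∀ n, Measurable (g n)) (hg : ∀ n, P.map (g n) = stdComplexGaussian) :
    ∀ᵐ ω ∂P, ∃ α₂ : ℝ, ∀ α : ℝ, α₂ ≤ α →
      ENNReal.ofReal (Real.exp (α ^ (11 / 10 : ℝ))) ≤ lifespan d p k (datum g α ω) := by
  obtain ⟨m, rfl⟩ := hp
  exact hF m k (by omega) Ω P g hm hg

/-- tail bound -/
theorem final_tail {d p k : ℕ} (hF : FinalQ d) (hp : Odd p) (hp3 : 3 ≤ p) :
    ∃ α₁ : ℝ, ∀ (Ω : Type) [MeasurableSpace Ω] (P : Measure Ω) [IsProbabilityMeasure P]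
      (g : (Fin d → ℤ) → Ω → ℂ), (∀ n, Measurable (g n)) →
      (∀ n, P.map (g n) = stdComplexGaussian) → ∀ α : ℝ, α₁ ≤ α →
        P {ω | lifespan d p k (datum g α ω) < ENNReal.ofReal (Real.exp (α ^ (11 / 10 : ℝ)))} ≤
          ENNReal.ofReal (Real.exp (-α ^ (1 / 10 : ℝ))) := by
  obtain ⟨m, rfl⟩ := hp
  obtain ⟨α₁, h⟩ := hF m k (by omega)
  exact ⟨α₁, fun Ω _ P _ g hm hg α hα => h Ω P g hm hg α hα⟩

/-- solutions in `C([0,T]; H^k)`, `2k > d`, are unique -/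
theorem final_unique {d p k : ℕ} (hp : Odd p) (hk : d < 2 * k) (T : ℝ)
    (u v : ℝ → (Fin d → ℤ) → ℂ) (hu : IsSolution d p k T u) (hv : IsSolution d p k T v)
    (h0 : u 0 = v 0) : ∀ t ∈ Icc 0 T, u t = v t := by
  obtain ⟨m, rfl⟩ := hp
  exact fun t ht => Vale.Agent.P139.H203.unique hk hu hv h0 t ht

end Vale.Agent.P139.BN
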