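import Vale.Agent.P139.R2.H999.Ae
import Vale.Agent.P139.R2.H999.Final
import Vale.Agent.P139.R2.H182.FinE
import Vale.Agent.P139.R2.H240.NumQ
import Vale.Agent.P139.R2.H572.HighQ
import Vale.Agent.P139.R2.H959.MeasQ
import Vale.Agent.P139.R2.H959.NRQ
import Vale.Agent.P139.R2.H628.DynAll
import Vale.Agent.P139.R2.H836.Lim

/-! # P139-N: both final statements from `HamQ` and `LimQ` only -/

set_option autoImplicit false

open Filter Topology MeasureTheory Set
open scoped ENNReal NNReal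

namespace Vale.Agent.P139.BN

theorem H999.nrTail : NRTail :=
  Vale.Agent.P139.R2N.nrTail_of (fun m _ => Vale.Agent.P139.R2N.measSmallQ m)
    (fun m hm => Vale.Agent.P139.R2.H572.highCasesQ m hm)

theorem H999.numQ : NumQ := fun a aH m q _ _ _ _ hA₁ hS hCd _ => numericsQ a aH m q hA₁ hS hCd

theorem detQ_two {d : ℕ} (hHam : HamQ d) (hLim : ∀ k m, 1 ≤ m → LimQ d k m) : DetQ d :=
  detQ_rows (dynThm d) hHam hLim H999.numQ

theorem finalQ_two {d : ℕ} (hHam : HamQ d) (hLim : ∀ k m, 1 ≤ m → LimQ d k m) : FinalQ d :=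
  finalQ_of H999.nrTail (detQ_two hHam hLim)

theorem finalThm_two {d : ℕ} (hHam : HamQ d) (hLim : ∀ k m, 1 ≤ m → LimQ d k m) : FinalThm d :=
  finalThm_of_detQ H999.nrTail (detQ_two hHam hLim)

/-- Both statements from `HamQ` alone. -/
theorem final_one {d : ℕ} (hHam : HamQ d) : FinalQ d ∧ FinalThm d :=
  ⟨finalQ_two hHam (fun k m _ => limQ d k m), finalThm_two hHam (fun k m _ => limQ d k m)⟩

end Vale.Agent.P139.BN
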