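import Vale.Agent.P139.R2.H999.Cl

open MvPolynomial Finset

namespace Vale.Agent.P139.BN

open Vale.Agent.P139.A Vale.Agent.P139.A.WA

variable {d : ℕ} {ι : Type} [Fintype ι] [DecidableEq ι]

theorem quadW (mo : ι → Lat d) (W pw : ι → ℝ) (hW : ∀ n, 1 ≤ W n) (hpw : ∀ n, 1 ≤ pw n) :
    Cls mo (DW W pw) 2 1 (quad fun n => (W n * pw n) ^ 2) := by
  classical
  refine ⟨fun I => if (I 0).1 = (I 1).1 ∧ (I 0).2 = true ∧ (I 1).2 = false then
    (((W (I 0).1 * pw (I 0).1) ^ 2 : ℝ) : ℂ) else 0, fun I => ?_, fun I hI => ?_, ?_⟩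
  · have h1 : 0 ≤ DW W pw 2 I := by
      unfold DW
      exact mul_nonneg (Finset.prod_nonneg fun l _ => zero_le_one.trans (hW _))
        (Finset.sum_nonneg fun l _ => Finset.sum_nonneg fun l' _ =>
          mul_nonneg (zero_le_one.trans (hpw _)) (zero_le_one.trans (hpw _)))
    beta_reduce
    split_ifs with h
    · rw [one_mul, Complex.norm_real, Real.norm_eq_abs, abs_of_nonneg (by positivity)]
      unfold DW
      have e0 : (univ : Finset (Fin 2)).erase 0 = {1} := by decide
      have e1 : (univ : Finset (Fin 2)).erase 1 = {0} := by decide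
      rw [Fin.prod_univ_two, Fin.sum_univ_two, e0, e1, Finset.sum_singleton, Finset.sum_singleton,
        ← h.1]
      have h2 := hW (I 0).1
      have h3 := hpw (I 0).1
      nlinarith [mul_pos (mul_pos (show 0 < W (I 0).1 by linarith) (show 0 < pw (I 0).1 by linarith))
        (mul_pos (show 0 < W (I 0).1 by linarith) (show 0 < pw (I 0).1 by linarith))]
    · rw [norm_zero, one_mul]
      exact h1
  · beta_reduce
    split_ifs with h
    · exfalso
      refine hI ?_
      unfold mom sm
      rw [Fin.sum_univ_two, h.2.1, h.2.2, h.1]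
      simp
    · rfl
  · unfold quad mon
    rw [← (finTwoArrowEquiv (ι × Bool)).symm.sum_comp, Fintype.sum_prod_type, Fintype.sum_prod_type]
    refine Finset.sum_congr rfl fun n _ => ?_
    rw [Fintype.sum_bool]
    simp only [finTwoArrowEquiv_symm_apply, Matrix.cons_val_zero, Matrix.cons_val_one,
      Fin.prod_univ_two, Bool.false_eq_true, false_and, and_false, if_false, map_zero, zero_mul,
      Finset.sum_const_zero, add_zero, true_and]
    rw [Fintype.sum_prod_type, Finset.sum_eq_single n]
    · rw [Fintype.sum_bool]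
      simp
    · intro m _ hm
      rw [Fintype.sum_bool]
      simp [Ne.symm hm]
    · intro h; exact absurd (Finset.mem_univ n) h

end Vale.Agent.P139.BN
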