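import Vale.Agent.P139.R2.H182.FinE
import Vale.Agent.P139.R2.H240.NumQ
import Vale.Agent.P139.R2.H836.Lim

/-!
# P139-N: stability up to the time `exp (α ^ (11 / 10))`, deterministic core and numerics
-/

set_option autoImplicit false

open MvPolynomial Finset
open scoped ComplexConjugate ENNReal

namespace Vale.Agent.P139.BN

open Vale.Agent.P139.A Vale.Agent.P139.A.WA

variable {d k : ℕ}

/-- The deterministic core with an arbitrary radius `r ≤ c / 8`. -/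
theorem coreC (hDyn : DynThm d) (hHam : HamQ d) {m : ℕ} (hm : 1 ≤ m) :
    ∃ (a aH : ℕ) (A₁ : ℝ), 1 ≤ A₁ ∧ ∀ c r : ℝ, 0 < c → 0 < r → r ≤ c / 8 →
    ∀ (N J : ℕ), J = 3 * N + 2 * m + 6 → ∀ (w₀ : WA d k), coef w₀ 0 = 0 → ‖w₀‖ ≤ r / 2 →
    ∀ (A κ γ S θ : ℝ) (R : ℕ),
    A = (A₁ * (Real.sqrt (c ^ 2 + H836.mass w₀) + (Real.sqrt (c ^ 2 + H836.mass w₀))⁻¹)) ^
      (aH * (N + 1)) → 1 ≤ κ → 0 < γ → γ ≤ 1 → 1 ≤ S →
    ∀ (W : Lat d → ℝ), (∀ n, 1 ≤ W n) → (∀ n, W (-n) = W n) → (∀ a b, W (a + b) ≤ W a * W b) →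
    (∀ L : ℕ, ∃ lev : {n // n ∈ box d L} → ℕ, Modes {n // n ∈ box d L} d J κ γ R θ S
      (fun n => n.1) lev (fun n => Om (m * (c ^ 2 + H836.mass w₀) ^ m) n.1) (fun n => W n.1)
      (fun n => (1 + sqNorm n.1) ^ (k + d + 1))) →
    ∀ η : ℝ, 0 < η →
    (∀ L : ℕ, nL (box d L) (fun n => W n * (1 + sqNorm n) ^ (k + d + 1)) (coef w₀) ≤ η) →
    Cst a J A κ S γ * (A * η) ≤ 1 → θ ≤ (A * η) ^ N → SS d k * (A * (2 * (A * η))) ≤ r / 2 →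
    ∀ T : ℝ, 0 ≤ T → T * (Cst a J A κ S γ * (A * η) ^ N) ≤ 1 →
    ∃ u : ℝ → WA d k, u 0 = cst c + w₀ ∧
      IsSolution d (2 * m + 1) k T (fun t => coef (u t)) ∧
      ∀ t ∈ Set.Icc 0 T, ∃ ζ : ℂ, ‖ζ‖ = 1 ∧ ‖u t - ζ • cst c‖ ≤ 2 * r := by
  obtain ⟨a, hDyn⟩ := hDyn
  obtain ⟨aH, A₁, hA₁, hHam⟩ := hHam m (k + d + 1) hm (by omega) (by omega)
  refine ⟨a, aH, A₁, hA₁, ?_⟩
  intro c r hc hr hrc N J hJ w₀ hw0 hwr A κ γ S θ R hA hκ hγ hγ1 hS W hW1 hWn hWs hM η hη hdat hc1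
    hc2 hc3 T hT hc4
  have hmass0 := H836.mass_nonneg w₀
  have hρ : 0 < Real.sqrt (c ^ 2 + H836.mass w₀) := Real.sqrt_pos.2 (by positivity)
  have hA1 : 1 ≤ A := by
    rw [hA]
    exact NumQ.one_le_A hA₁ hρ _
  have hA0 : 0 < A := by linarith
  refine lim_core hc hr hrc hw0 hwr hT fun L T' hT' w hw hinit hwR => ?_
  -- the Hamiltonian structure
  obtain ⟨H, hH0, hHc, hHz, hHr, hHd⟩ := hHam N (2 * N + 2 * m + 2) A rfl k c (H836.mass w₀) hc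
    hmass0 hA (box d L) (fun n hn => neg_mem_box hn) (zero_notMem_box d L) W
    (fun n => (1 + sqNorm n) ^ (k + d + 1)) hW1 hWn hWs (fun n => rfl)
  obtain ⟨z, ρ, hode, hrem, heq⟩ := hHd T' w hw
  obtain ⟨lev, hmod⟩ := hM L
  have hT0' : (0 : ℝ) ∈ Set.Icc 0 T' := ⟨le_rfl, hT'.1⟩
  have hz0 : nw (fun n : {n // n ∈ box d L} => W n.1 * (1 + sqNorm n.1) ^ (k + d + 1))
      (pt (z 0)) ≤ A * η := by
    refine ((heq 0 hT0').1).trans (mul_le_mul_of_nonneg_left ?_ hA0.le)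
    have e1 : nL (box d L) (fun n => W n * (1 + sqNorm n) ^ (k + d + 1)) (coef (w 0)) =
        nL (box d L) (fun n => W n * (1 + sqNorm n) ^ (k + d + 1)) (coef w₀) := by
      unfold nL
      congr 1
      exact Finset.sum_congr rfl fun n hn => by rw [hinit n hn]
    rw [e1]
    exact hdat L
  have hT'c : T' * (Cst a J A κ S γ * (A * η) ^ N) ≤ 1 := by
    refine le_trans (mul_le_mul_of_nonneg_right hT'.2 ?_) hc4
    have : 0 ≤ Cst a J A κ S γ := by unfold Cst; positivity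
    positivity
  have hdyn := hDyn N J (2 * N + 2 * m + 2) (by omega) A κ γ S hA1 hκ hγ hγ1 hS
    {n // n ∈ box d L} R θ (fun n => n.1) lev _ _ _ hmod H hH0 hHc hHz hHr (A * η) T'
    (by positivity) hT'.1 hc1 hc2 hT'c z ρ hode hrem hz0
  intro t ht
  have hsum : ∑ n ∈ box d L, Vale.Agent.P139.A.W (k + 1) n * ‖coef (w t) n‖ ≤ r / 2 := by
    refine (sum_le_nL (box d L) W hW1 (coef (w t)) k).trans ?_
    have h1 := (heq t ht).2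
    have h2 := hdyn t ht
    have h3 : nL (box d L) (fun n => W n * (1 + sqNorm n) ^ (k + d + 1)) (coef (w t)) ≤
        A * (2 * (A * η)) := h1.trans (mul_le_mul_of_nonneg_left h2 hA0.le)
    exact (mul_le_mul_of_nonneg_left h3 (SS_nonneg d k)).trans hc3
  exact (norm_le_sum (hw.supp t ht)).trans hsum

/-- The small radius `2 ^ (-α / 5)`. -/
theorem numC (aH D : ℕ) {A₁ Cd s₀ : ℝ} (hA₁ : 1 ≤ A₁) (hCd : 1 ≤ Cd) :
    ∀ᶠ α : ℝ in Filter.atTop, ∀ c ρ A : ℝ, ((2 : ℝ) ^ NN α)⁻¹ ≤ c → c ≤ (2 : ℝ) ^ NN α → c ≤ ρ →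
      ρ ≤ 2 * c → A = (A₁ * (ρ + ρ⁻¹)) ^ (aH * (NN α + 1)) →
      s₀ * (A * (2 * (A * (Cd * 2 ^ NN α * 2 ^ (-α / 4))))) ≤ 2 ^ (-α / 5) / 2 ∧
      (2 : ℝ) ^ (-α / 5) ≤ c / 8 ∧
      (2 : ℝ) ^ D * 2 ^ NN α * (2 : ℝ) ^ (-α / 2) ≤ 2 ^ (-α / 5) / 2 := by
  obtain ⟨b1, hb1⟩ := exists_le_two_pow A₁
  obtain ⟨c2, hc2⟩ : ∃ c2 : ℕ, c2 = 2 * aH * (b1 + 3) := ⟨_, rfl⟩
  obtain ⟨b2, hb2⟩ := exists_le_two_pow Cd
  obtain ⟨b3, hb3⟩ := exists_le_two_pow (4 * s₀)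
  obtain ⟨e, he⟩ : ∃ e : ℕ, e = 20 * (2 * c2 + b2 + b3 + D + 5) := ⟨_, rfl⟩
  filter_upwards [NN_tendsto.eventually_ge_atTop (e + 1), Filter.eventually_ge_atTop 1]
    with α hN hα1 c ρ A hc1 hc2' h1 h2 hA
  have hα0 : 0 ≤ α := by linarith
  have h9 := NN_pow_le hα0
  generalize NN α = N at *
  have hNpos : 1 ≤ N := by omega
  have hNR : (1 : ℝ) ≤ N := by exact_mod_cast hNpos
  have heR : (e : ℝ) ≤ N := by exact_mod_cast (by omega : e ≤ N)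
  have he0 : (0 : ℝ) ≤ e := Nat.cast_nonneg e
  have hN28 : (N : ℝ) ^ 2 ≤ (N : ℝ) ^ 8 := pow_le_pow_right₀ hNR (by norm_num)
  have hN2 : (1 : ℝ) ≤ (N : ℝ) ^ 2 := one_le_pow₀ hNR
  have hNN2 : (N : ℝ) ≤ (N : ℝ) ^ 2 := by nlinarith
  have heN : (e : ℝ) * (N : ℝ) ^ 2 ≤ α := by
    calc (e : ℝ) * (N : ℝ) ^ 2 ≤ N * (N : ℝ) ^ 8 := by gcongr
      _ = (N : ℝ) ^ 9 := by ring
      _ ≤ α := h9
  have heR' : (e : ℝ) = 20 * (2 * c2 + b2 + b3 + D + 5) := by rw [he]; push_cast; ring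
  have hp : (0 : ℝ) < 2 ^ N := by positivity
  have hc0 : 0 < c := lt_of_lt_of_le (inv_pos.2 hp) hc1
  have hρ : 0 < ρ := by linarith
  have hi : ρ⁻¹ ≤ 2 ^ N := by
    rw [inv_le_comm₀ hρ hp]
    linarith
  have hρ2 : ρ + ρ⁻¹ ≤ 2 ^ (N + 2) := by
    rw [pow_add]
    norm_num
    linarith
  have hA1 : 1 ≤ A := by rw [hA]; exact NumQ.one_le_A hA₁ hρ _
  have hA2 : A ≤ 2 ^ (c2 * N ^ 2) := by
    rw [hA, hc2]; exact NumQ.A_le hNpos hA₁ hb1 hρ hρ2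
  have hc2R : (0 : ℝ) ≤ c2 := Nat.cast_nonneg _
  have hb2R : (0 : ℝ) ≤ b2 := Nat.cast_nonneg _
  have hb3R : (0 : ℝ) ≤ b3 := Nat.cast_nonneg _
  have hDR : (0 : ℝ) ≤ D := Nat.cast_nonneg _
  -- exponents
  have hsplit : ∀ x : ℝ, (2 : ℝ) ^ (-α / 5) * 2 ^ (-x) = 2 ^ (-(α / 5 + x)) := fun x => by
    rw [← Real.rpow_add (by norm_num)]
    congr 1
    ring
  refine ⟨?_, ?_, ?_⟩
  · have e4 : (2 : ℝ) ^ (-α / 4) = 2 ^ (-α / 5) * 2 ^ (-(α / 20)) := by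
      rw [← Real.rpow_add (by norm_num)]
      congr 1
      ring
    have key : 4 * s₀ * (A * (A * (Cd * 2 ^ N))) * 2 ^ (-(α / 20)) ≤ 1 := by
      calc 4 * s₀ * (A * (A * (Cd * 2 ^ N))) * 2 ^ (-(α / 20))
          ≤ 2 ^ b3 * (2 ^ (c2 * N ^ 2) * (2 ^ (c2 * N ^ 2) * (2 ^ b2 * 2 ^ N))) *
            2 ^ (-(α / 20)) := by gcongr
        _ = 2 ^ (b3 + (c2 * N ^ 2 + (c2 * N ^ 2 + (b2 + N)))) * 2 ^ (-(α / 20)) := by
            rw [pow_add, pow_add, pow_add, pow_add]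
        _ ≤ 1 := by
            apply hkey
            push_cast
            nlinarith
    have hr : (0 : ℝ) < 2 ^ (-α / 5) := by positivity
    rw [e4]
    calc s₀ * (A * (2 * (A * (Cd * 2 ^ N * (2 ^ (-α / 5) * 2 ^ (-(α / 20)))))))
        = 4 * s₀ * (A * (A * (Cd * 2 ^ N))) * 2 ^ (-(α / 20)) * (2 ^ (-α / 5) / 2) := by ring
      _ ≤ 1 * (2 ^ (-α / 5) / 2) := by gcongr
      _ = _ := one_mul _
  · have key : (2 : ℝ) ^ (N + 3) * 2 ^ (-(α / 5)) ≤ 1 := by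
      apply hkey
      push_cast
      nlinarith
    have e5 : (2 : ℝ) ^ (-α / 5) = 2 ^ (-(α / 5)) := by congr 1; ring
    rw [e5]
    have h8 : (2 : ℝ) ^ (-(α / 5)) * 8 * 2 ^ N ≤ 1 := by
      calc (2 : ℝ) ^ (-(α / 5)) * 8 * 2 ^ N = (2 : ℝ) ^ (N + 3) * 2 ^ (-(α / 5)) := by
            rw [pow_add]; ring
        _ ≤ 1 := key
    have h9' : (2 : ℝ) ^ (-(α / 5)) * 8 ≤ (2 ^ N)⁻¹ := by
      rw [← one_div, le_div_iff₀ hp]
      exact h8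
    linarith
  · have e2 : (2 : ℝ) ^ (-α / 2) = 2 ^ (-α / 5) * 2 ^ (-(3 * α / 10)) := by
      rw [← Real.rpow_add (by norm_num)]
      congr 1
      ring
    have key : (2 : ℝ) ^ (D + N + 1) * 2 ^ (-(3 * α / 10)) ≤ 1 := by
      apply hkey
      push_cast
      nlinarith
    have hr : (0 : ℝ) < 2 ^ (-α / 5) := by positivity
    rw [e2]
    calc (2 : ℝ) ^ D * 2 ^ N * (2 ^ (-α / 5) * 2 ^ (-(3 * α / 10)))
        = (2 : ℝ) ^ (D + N + 1) * 2 ^ (-(3 * α / 10)) * (2 ^ (-α / 5) / 2) := by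
          rw [pow_add, pow_add]; ring
      _ ≤ 1 * (2 ^ (-α / 5) / 2) := by gcongr
      _ = _ := one_mul _

end Vale.Agent.P139.BN
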