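import Vale.Agent.P139.R2.H999.StabA
import Vale.Agent.P139.R2.H999.Ae
import Vale.Agent.P139.H203.Main
import Vale.Agent.P139.R2.H628.DynAll

/-!
# P139-N: stability up to the time `exp (α ^ (11 / 10))`, deterministic statement
-/

set_option autoImplicit false

open MvPolynomial Finset
open scoped ComplexConjugate ENNReal

namespace Vale.Agent.P139.BN

open Vale.Agent.P139.A Vale.Agent.P139.A.WA

variable {d k : ℕ}

/-- Good sample of order `N`. -/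
def Good (d m N : ℕ) (γ : Lat d → ℂ) : Prop :=
  ((2 : ℝ) ^ N)⁻¹ ≤ ‖γ 0‖ ∧ ‖γ 0‖ ≤ (2 : ℝ) ^ N ∧ NonRes N (m * ‖γ 0‖ ^ (2 * m)) ∧
    (Summable fun n => ‖γ n‖ * (Vale.Agent.P139.A.W (2 * d) n)⁻¹) ∧
    ∑' n, ‖γ n‖ * (Vale.Agent.P139.A.W (2 * d) n)⁻¹ ≤ (2 : ℝ) ^ N

/-- The deterministic statement with stability. -/
def DetC (d : ℕ) : Prop :=
  ∀ (m k : ℕ), 1 ≤ m → ∃ α₁ : ℝ, ∀ α ≥ α₁, ∀ γ : Lat d → ℂ, Good d m (NN α) γ →
    ∃ u : ℝ → Lat d → ℂ, IsSolution d (2 * m + 1) k (Real.exp (α ^ (11 / 10 : ℝ))) u ∧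
      (u 0 = fun n => γ n * ((Real.sqrt (1 + sqNorm n) ^ (-α) : ℝ) : ℂ)) ∧
      ∀ t ∈ Set.Icc 0 (Real.exp (α ^ (11 / 10 : ℝ))), ∃ w : ℂ, ‖w‖ = 1 ∧
        sobolevSq k (fun n => u t n - if n = 0 then w * γ 0 else 0) ≤ (2 : ℝ) ^ (-α / 3)

/-- The constant is absorbed. -/
theorem absorbC (d k : ℕ) : ∀ᶠ α : ℝ in Filter.atTop,
    (1 + d : ℝ) ^ k * (2 * 2 ^ (-α / 5)) ^ 2 ≤ (2 : ℝ) ^ (-α / 3) := by
  obtain ⟨b, hb⟩ := exists_le_two_pow ((1 + d : ℝ) ^ k * 4)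
  filter_upwards [Filter.eventually_ge_atTop ((15 * b : ℕ) : ℝ)] with α hα
  push_cast at hα
  have e1 : ((2 : ℝ) ^ (-α / 5)) ^ 2 = 2 ^ (-α / 3) * 2 ^ (-(α / 15)) := by
    rw [← Real.rpow_natCast, ← Real.rpow_mul (by norm_num), ← Real.rpow_add (by norm_num)]
    congr 1
    push_cast
    ring
  have key : (2 : ℝ) ^ b * 2 ^ (-(α / 15)) ≤ 1 := hkey b _ (by linarith)
  have hp : (0 : ℝ) < 2 ^ (-α / 3) := by positivity
  calc (1 + d : ℝ) ^ k * (2 * 2 ^ (-α / 5)) ^ 2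
      = (1 + d : ℝ) ^ k * 4 * 2 ^ (-(α / 15)) * 2 ^ (-α / 3) := by rw [mul_pow, e1]; ring
    _ ≤ 2 ^ b * 2 ^ (-(α / 15)) * 2 ^ (-α / 3) := by gcongr
    _ ≤ 1 * 2 ^ (-α / 3) := by gcongr
    _ = _ := one_mul _

theorem detC_of (hDyn : DynThm d) (hHam : HamQ d) : DetC d := by
  intro m k hm
  obtain ⟨a, aH, A₁, hA₁, hcore⟩ := coreC (k := k) hDyn hHam hm
  obtain ⟨S, hS, hM⟩ := modes_box d k
  obtain ⟨C, hC, α₂, hD⟩ := dataQ d k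
  have hev := ((((((((numericsQ a aH m (k + d + 1) (s₀ := SS d k) hA₁ hS hC).and
    (small_ineq (k + 2 * d) m)).and (Filter.eventually_ge_atTop α₂)).and
    (Filter.eventually_ge_atTop ((k + 2 * d : ℕ) : ℝ))).and (Filter.eventually_ge_atTop (0 : ℝ))).and
    (numC aH (k + 2 * d) (s₀ := SS d k) hA₁ hC)).and (absorbC d k)))
  obtain ⟨α₁, hα₁⟩ := hev.exists_forall_of_atTop
  refine ⟨α₁, fun α hα g ⟨hlo, hhi, hNR, hs, hsM⟩ => ?_⟩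
  obtain ⟨⟨⟨⟨⟨⟨hnum, hsmall⟩, hαα₂⟩, hαk⟩, hα0⟩, hnumC⟩, habs⟩ := hα₁ α hα
  obtain ⟨hs1, hs2, hs3⟩ := hsmall ‖g 0‖ hlo hhi
  obtain ⟨b, hbc, hbn⟩ := datum_elemQ k hs hsM hαk
  set z : ℂ := g 0 with hzdef
  have hρ : 0 < ‖z‖ := lt_of_lt_of_le (by positivity) hlo
  -- the phase
  set ζ : ℂ := z / ‖z‖ with hζ
  have hζn : ‖ζ‖ = 1 := by
    rw [hζ, norm_div, Complex.norm_real, norm_norm, div_self hρ.ne']
  have hζ0 : ζ ≠ 0 := by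
    intro h
    rw [h] at hζn
    simp at hζn
  have hζz : ζ * ‖z‖ = z := by
    have hzC : (‖z‖ : ℂ) ≠ 0 := by exact_mod_cast hρ.ne'
    rw [hζ]
    field_simp
  set w₀ : WA d k := ζ⁻¹ • b with hw₀
  have hw₀n : ‖w₀‖ = ‖b‖ := by
    rw [hw₀, norm_smul, norm_inv, hζn, inv_one, one_mul]
  have hw₀c : ∀ n, coef w₀ n = ζ⁻¹ * coef b n := fun n => by rw [hw₀, coef_smul]
  have hw₀0 : coef w₀ 0 = 0 := by rw [hw₀c, hbc, if_pos rfl, mul_zero]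
  have hwε : ‖w₀‖ ≤ ‖z‖ / 32 := by
    rw [hw₀n]
    exact hbn.trans hs1
  -- the mass
  have he0 : 0 ≤ H836.mass w₀ := H836.mass_nonneg w₀
  have he2 : H836.mass w₀ ≤ ((2 : ℝ) ^ (k + 2 * d) * 2 ^ NN α * (2 : ℝ) ^ (-α / 2)) ^ 2 := by
    refine (H836.mass_le w₀).trans ?_
    rw [hw₀n]
    exact pow_le_pow_left₀ (norm_nonneg _) hbn 2
  have he1 : H836.mass w₀ ≤ 1 := he2.trans (pow_le_one₀ (by positivity) hs2)
  have hec : H836.mass w₀ ≤ (‖z‖ / 32) ^ 2 :=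
    (H836.mass_le w₀).trans (pow_le_pow_left₀ (norm_nonneg _) hwε 2)
  have hr1 : ‖z‖ ≤ Real.sqrt (‖z‖ ^ 2 + H836.mass w₀) := by
    apply Real.le_sqrt_of_sq_le
    linarith
  have hr2 : Real.sqrt (‖z‖ ^ 2 + H836.mass w₀) ≤ 2 * ‖z‖ := by
    rw [Real.sqrt_le_left (by positivity)]
    nlinarith [sq_nonneg ‖z‖]
  obtain ⟨n9, nJ, c1, c2, -, c4⟩ := hnum ‖z‖ (Real.sqrt (‖z‖ ^ 2 + H836.mass w₀)) _ hlo hhi hr1 hr2
    rfl
  obtain ⟨c3, c5, c6⟩ := hnumC ‖z‖ (Real.sqrt (‖z‖ ^ 2 + H836.mass w₀)) _ hlo hhi hr1 hr2 rfl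
  have hμ : |m * (‖z‖ ^ 2 + H836.mass w₀) ^ m - m * ‖z‖ ^ (2 * m)| ≤
      ((2 : ℝ) ^ (NN α ^ 6 + NN α))⁻¹ := by
    refine (mu_shift he0 he1 m).trans (le_trans ?_ hs3)
    exact mul_le_mul_of_nonneg_left he2 (by positivity)
  have hnr : NRat (NN α) (m * (‖z‖ ^ 2 + H836.mass w₀) ^ m) ((2 : ℝ) ^ (NN α ^ 6))⁻¹ := hNR _ hμ
  have hJ1 : (1 : ℝ) ≤ (((3 * NN α + 2 * m + 6 : ℕ) : ℝ)) ^ (2 * (k + d + 1)) := by
    apply one_le_pow₀
    have : 1 ≤ 3 * NN α + 2 * m + 6 := by omega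
    exact_mod_cast this
  have hγ0 : (0 : ℝ) < ((2 : ℝ) ^ (NN α ^ 6))⁻¹ := by positivity
  have hγ1 : ((2 : ℝ) ^ (NN α ^ 6))⁻¹ ≤ 1 := inv_le_one_of_one_le₀ (one_le_pow₀ (by norm_num))
  obtain ⟨u, hu0, hu, hcl⟩ := hcore ‖z‖ (2 ^ (-α / 5)) hρ (by positivity) c5 (NN α)
    (3 * NN α + 2 * m + 6) rfl w₀ hw₀0 (by rw [hw₀n]; exact hbn.trans c6) _
    (((3 * NN α + 2 * m + 6 : ℕ) : ℝ) ^ (2 * (k + d + 1))) ((2 : ℝ) ^ (NN α ^ 6))⁻¹ S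
    ((2 : ℝ) ^ (-(α * ((NN α : ℝ) / 4 + 1)))) (4 ^ (NN α + 8)) rfl hJ1 hγ0 hγ1 hS (WW α (NN α))
    (fun n => one_le_WW hα0 (NN α) n) (WW_neg α (NN α)) (fun a b => WW_add_le hα0 (NN α) a b)
    (fun L => hM α (NN α) (3 * NN α + 2 * m + 6) _ _ hα0 (by omega) nJ hnr L)
    (C * 2 ^ NN α * 2 ^ (-α / 4)) (by positivity) (fun L => by
      refine le_trans (le_of_eq ?_)
        (hD α hαα₂ (NN α) n9 g hs _ hsM (box d L) (zero_notMem_box d L))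
      unfold nL
      congr 1
      refine Finset.sum_congr rfl fun n hn => ?_
      have hn0 : n ≠ 0 := by
        rintro rfl
        exact zero_notMem_box d L hn
      rw [hw₀c, hbc, if_neg hn0, norm_mul, norm_inv, hζn, inv_one, one_mul])
    c1 c2 c3 (Real.exp (α ^ (11 / 10 : ℝ))) (Real.exp_pos _).le c4
  refine ⟨fun t n => ζ * coef (u t) n, isSolution_phase hu hζn, ?_, fun t ht => ?_⟩
  · funext n
    show ζ * coef (u 0) n = _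
    rw [hu0, coef_add, coef_cst, hw₀c, hbc]
    by_cases hn : n = 0
    · subst hn
      simp only [if_true, mul_zero, add_zero]
      rw [hζz, sqNorm_zero]
      simp [hzdef]
    · rw [if_neg hn, if_neg hn, zero_add, ← mul_assoc, mul_inv_cancel₀ hζ0, one_mul]
  · obtain ⟨w, hw, hwn⟩ := hcl t ht
    refine ⟨w, hw, le_trans ?_ habs⟩
    have e1 : sobolevSq k (fun n => ζ * coef (u t) n - if n = 0 then w * z else 0) =
        sobolevSq k (coef (u t - w • cst ‖z‖)) := by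
      unfold sobolevSq
      refine tsum_congr fun n => ?_
      have e2 : ζ * coef (u t) n - (if n = 0 then w * z else 0) =
          ζ * coef (u t - w • cst ‖z‖) n := by
        rw [coef_sub, coef_smul, coef_cst]
        by_cases hn : n = 0
        · rw [if_pos hn, if_pos hn]
          calc ζ * coef (u t) n - w * z = ζ * coef (u t) n - w * (ζ * ‖z‖) := by rw [hζz]
            _ = _ := by ring
        · rw [if_neg hn, if_neg hn]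
          ring
      show (1 + sqNorm n) ^ k * ‖ζ * coef (u t) n - (if n = 0 then w * z else 0)‖ ^ 2 = _
      rw [e2, norm_mul, hζn, one_mul]
    rw [e1]
    refine (sobolevSq_le _).trans ?_
    gcongr

end Vale.Agent.P139.BN
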