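import Vale.Agent.P139.R2.H999.StabB

/-!
# P139-N: stability up to the time `exp (α ^ (11 / 10))`, probability part
-/

set_option autoImplicit false

open Filter Topology MeasureTheory Set
open scoped ENNReal NNReal

namespace Vale.Agent.P139.BN

open Vale.Agent.P139.A Vale.Agent.P139.A.WA

variable {d k : ℕ}

/-- The bad samples of order `N` have probability at most `(C + 1) 2 ^ (-N)`. -/
theorem prob_good (d : ℕ) {m : ℕ} (hm : 1 ≤ m) (hNR : NRTail) : ∃ C : ℝ, 0 ≤ C ∧ ∃ N₀ : ℕ,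
    ∀ (Ω : Type) [MeasurableSpace Ω] (P : Measure Ω) [IsProbabilityMeasure P]
      (g : Lat d → Ω → ℂ), (∀ n, Measurable (g n)) → (∀ n, P.map (g n) = stdComplexGaussian) →
      ∀ N, N₀ ≤ N → P {ω | ¬ Good d m N (fun n => g n ω)} ≤
        ENNReal.ofReal ((C + 1) / (2 : ℝ) ^ N) := by
  obtain ⟨N₀, hN₀⟩ := hNR m hm
  obtain ⟨C, hC, HS⟩ := Vale.Agent.P139.Q836.sum_tail d
  refine ⟨C, by linarith, N₀, fun Ω _ P _ g hm' hg N hN => ?_⟩
  have h1 := HS P g hm' hg ((2 : ℝ) ^ N) (by positivity)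
  have h2 : P ((g 0) ⁻¹' {z : ℂ | ¬ (((2 : ℝ) ^ N)⁻¹ ≤ ‖z‖ ∧ ‖z‖ ≤ (2 : ℝ) ^ N ∧
        NonRes N (m * ‖z‖ ^ (2 * m)))}) ≤ ENNReal.ofReal ((2 : ℝ) ^ N)⁻¹ := by
    refine (Measure.le_map_apply (hm' 0).aemeasurable _).trans ?_
    rw [hg 0]
    exact hN₀ N hN
  have hsub : {ω | ¬ Good d m N (fun n => g n ω)} ⊆
      {ω | ¬ ((Summable fun n => ‖g n ω‖ * (Vale.Agent.P139.A.W (2 * d) n)⁻¹) ∧
        ∑' n, ‖g n ω‖ * (Vale.Agent.P139.A.W (2 * d) n)⁻¹ ≤ (2 : ℝ) ^ N)} ∪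
      (g 0) ⁻¹' {z : ℂ | ¬ (((2 : ℝ) ^ N)⁻¹ ≤ ‖z‖ ∧ ‖z‖ ≤ (2 : ℝ) ^ N ∧
        NonRes N (m * ‖z‖ ^ (2 * m)))} := by
    intro ω hω
    by_contra hcon
    rw [mem_union, not_or] at hcon
    obtain ⟨c1, c2⟩ := hcon
    rw [mem_setOf_eq, not_not] at c1
    rw [mem_preimage, mem_setOf_eq, not_not] at c2
    exact hω ⟨c2.1, c2.2.1, c2.2.2, c1.1, c1.2⟩
  refine (measure_mono hsub).trans ((measure_union_le _ _).trans ((add_le_add h1 h2).trans ?_))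
  have hC0 : 0 ≤ C / (2 : ℝ) ^ N := by positivity
  rw [← ENNReal.ofReal_add hC0 (by positivity)]
  refine ENNReal.ofReal_le_ofReal (le_of_eq ?_)
  rw [add_div, one_div]

/-- A property of good samples fails with probability at most `exp (-α ^ (1 / 10))`. -/
theorem tail_of_good {m : ℕ} (hm : 1 ≤ m) (hNR : NRTail) {Q : ℝ → (Lat d → ℂ) → Prop} {α₁ : ℝ}
    (hQ : ∀ α ≥ α₁, ∀ γ, Good d m (NN α) γ → Q α γ) : ∃ α₂ : ℝ,
    ∀ (Ω : Type) [MeasurableSpace Ω] (P : Measure Ω) [IsProbabilityMeasure P]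
      (g : Lat d → Ω → ℂ), (∀ n, Measurable (g n)) → (∀ n, P.map (g n) = stdComplexGaussian) →
      ∀ α ≥ α₂, P {ω | ¬ Q α (fun n => g n ω)} ≤
        ENNReal.ofReal (Real.exp (-α ^ (1 / 10 : ℝ))) := by
  obtain ⟨C, hC, N₀, HP⟩ := prob_good d hm hNR
  obtain ⟨b, hb⟩ := exists_le_two_pow (C + 1)
  obtain ⟨α₂, hα₂⟩ := ((NN_tendsto.eventually_ge_atTop (max N₀ (2 * b))).and
    (NN_lower.and (eventually_ge_atTop (max α₁ 1)))).exists_forall_of_atTop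
  refine ⟨α₂, ?_⟩
  intro Ω _ P _ g hm' hg α hα
  obtain ⟨hN, hlow, hα1⟩ := hα₂ α hα
  have hNN₀ : N₀ ≤ NN α := (le_max_left _ _).trans hN
  have hNb : 2 * b ≤ NN α := (le_max_right _ _).trans hN
  have hαα₁ : α₁ ≤ α := (le_max_left _ _).trans hα1
  have hα1' : 1 ≤ α := (le_max_right _ _).trans hα1
  have hQ' := hQ α hαα₁
  have hsub : {ω | ¬ Q α (fun n => g n ω)} ⊆ {ω | ¬ Good d m (NN α) (fun n => g n ω)} :=
    fun ω hω h => hω (hQ' _ h)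
  refine (measure_mono hsub).trans ((HP Ω P g hm' hg (NN α) hNN₀).trans ?_)
  generalize NN α = N at *
  refine ENNReal.ofReal_le_ofReal ?_
  have hx : 0 ≤ α ^ (1 / 10 : ℝ) := Real.rpow_nonneg (by linarith) _
  rw [Real.exp_neg, ← one_div, div_le_div_iff₀ (by positivity) (Real.exp_pos _), one_mul]
  have e1 : Real.exp (α ^ (1 / 10 : ℝ)) ≤ (2 : ℝ) ^ ((N : ℝ) / 2) := by
    refine (exp_le_two_rpow hx).trans ?_
    apply Real.rpow_le_rpow_of_exponent_le (by norm_num)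
    linarith [Nat.cast_nonneg (α := ℝ) N]
  have e2 : (C + 1 : ℝ) ≤ (2 : ℝ) ^ ((N : ℝ) / 2) := by
    refine hb.trans ?_
    rw [← Real.rpow_natCast]
    apply Real.rpow_le_rpow_of_exponent_le (by norm_num)
    have : (2 : ℝ) * b ≤ N := by exact_mod_cast hNb
    linarith
  calc (C + 1) * Real.exp (α ^ (1 / 10 : ℝ)) ≤ (2 : ℝ) ^ ((N : ℝ) / 2) * (2 : ℝ) ^ ((N : ℝ) / 2) :=
        mul_le_mul e2 e1 (Real.exp_pos _).le (by positivity)
    _ = (2 : ℝ) ^ N := by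
        rw [← Real.rpow_add (by norm_num), add_halves, Real.rpow_natCast]

/-- A property of good samples holds almost surely for all large `α`. -/
theorem ae_of_good {m : ℕ} (hm : 1 ≤ m) (hNR : NRTail) {Q : ℝ → (Lat d → ℂ) → Prop} {α₁ : ℝ}
    (hQ : ∀ α ≥ α₁, ∀ γ, Good d m (NN α) γ → Q α γ)
    (Ω : Type) [MeasurableSpace Ω] (P : Measure Ω) [IsProbabilityMeasure P]
    (g : Lat d → Ω → ℂ) (hm' : ∀ n, Measurable (g n)) (hg : ∀ n, P.map (g n) = stdComplexGaussian) :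
    ∀ᵐ ω ∂P, ∃ α₂ : ℝ, ∀ α ≥ α₂, Q α (fun n => g n ω) := by
  obtain ⟨C, hC, N₀, HP⟩ := prob_good d hm hNR
  have hPE := HP Ω P g hm' hg
  have hsum : ∑' N, P {ω | ¬ Good d m (N + N₀) (fun n => g n ω)} ≠ ∞ := by
    refine ne_top_of_le_ne_top ?_ (ENNReal.tsum_le_tsum fun N => hPE (N + N₀) (by omega))
    rw [← ENNReal.ofReal_tsum_of_nonneg (fun N => by positivity)]
    · exact ENNReal.ofReal_ne_top
    · have e : ∀ N : ℕ, (C + 1) / (2 : ℝ) ^ (N + N₀) = (C + 1) * (1 / 2 : ℝ) ^ N / 2 ^ N₀ := by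
        intro N
        rw [pow_add, one_div, inv_pow]
        field_simp
      simp_rw [e]
      exact ((summable_geometric_of_lt_one (by norm_num) (by norm_num)).mul_left _).div_const _
  filter_upwards [ae_eventually_notMem hsum] with ω hω
  obtain ⟨N₁, hN₁⟩ := eventually_atTop.1 hω
  obtain ⟨α₂, hα₂⟩ := (NN_tendsto.eventually_ge_atTop (N₁ + N₀)).exists_forall_of_atTop
  refine ⟨max α₁ α₂, fun α hα => ?_⟩
  have hN := hα₂ α ((le_max_right _ _).trans hα)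
  have hmem := hN₁ (NN α - N₀) (by omega)
  rw [Nat.sub_add_cancel (by omega), not_not] at hmem
  exact hQ α ((le_max_left _ _).trans hα) _ hmem

/-- The lifespan bound and the stability, for one sample. -/
def Stab (d m k : ℕ) (α : ℝ) (γ : Lat d → ℂ) : Prop :=
  ENNReal.ofReal (Real.exp (α ^ (11 / 10 : ℝ))) ≤
      lifespan d (2 * m + 1) k (fun n => γ n * ((Real.sqrt (1 + sqNorm n) ^ (-α) : ℝ) : ℂ)) ∧
    ∀ (T : ℝ) (u : ℝ → Lat d → ℂ), IsSolution d (2 * m + 1) k T u →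
      (u 0 = fun n => γ n * ((Real.sqrt (1 + sqNorm n) ^ (-α) : ℝ) : ℂ)) →
      ∀ t ∈ Icc 0 T, t ≤ Real.exp (α ^ (11 / 10 : ℝ)) → ∃ w : ℂ, ‖w‖ = 1 ∧
        sobolevSq k (fun n => u t n - if n = 0 then w * γ 0 else 0) ≤ (2 : ℝ) ^ (-α / 3)

theorem stab_det (hDyn : DynThm d) (hHam : HamQ d) {m : ℕ} (hm : 1 ≤ m) (hk : d < 2 * k) :
    ∃ α₁ : ℝ, ∀ α ≥ α₁, ∀ γ, Good d m (NN α) γ → Stab d m k α γ := by
  obtain ⟨α₁, h⟩ := detC_of hDyn hHam m k hm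
  refine ⟨α₁, fun α hα γ hγ => ?_⟩
  obtain ⟨u, hu, hu0, hcl⟩ := h α hα γ hγ
  refine ⟨lifespan_ge (Real.exp_pos _).le ⟨u, hu0, hu⟩, fun T v hv hv0 t ht hte => ?_⟩
  have hmin : t ∈ Icc 0 (min T (Real.exp (α ^ (11 / 10 : ℝ)))) := ⟨ht.1, le_min ht.2 hte⟩
  have h1 := Vale.Agent.P139.H203.isSolution_mono
    (min_le_left T (Real.exp (α ^ (11 / 10 : ℝ)))) hv
  have h2 := Vale.Agent.P139.H203.isSolution_mono
    (min_le_right T (Real.exp (α ^ (11 / 10 : ℝ)))) hu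
  have e := Vale.Agent.P139.H203.unique hk h1 h2 (hv0.trans hu0.symm) t hmin
  obtain ⟨w, hw, hb⟩ := hcl t ⟨ht.1, hte⟩
  exact ⟨w, hw, by rw [e]; exact hb⟩

end Vale.Agent.P139.BN
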