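import Mathlib.Algebra.Module.BigOperators
import Mathlib.Data.Real.Basic
import Mathlib.Tactic
import Mathlib.Algebra.Order.Antidiag.Pi
import Mathlib.Algebra.BigOperators.NatAntidiagonal

/-! # Transport along a formal generator

`L` with a bilinear antisymmetric bracket satisfying the Jacobi identity.  `Tr χ X` is the formal series
`∑ τ^l X_l` with `X_0 = X` and `X' = {χ, X}`. -/

namespace Vale.Agent.P139.NF

/-- a bilinear bracket with antisymmetry and the Jacobi identity -/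
structure IsBr {L : Type*} [AddCommGroup L] [Module ℝ L] (b : L → L → L) : Prop where
  addR : ∀ x y z, b x (y + z) = b x y + b x z
  smulR : ∀ (c : ℝ) x y, b x (c • y) = c • b x y
  anti : ∀ x y, b x y = -b y x
  jac : ∀ x y z, b x (b y z) = b (b x y) z + b y (b x z)

variable {L : Type*} [AddCommGroup L] [Module ℝ L] {b : L → L → L}

namespace IsBr

theorem addL (h : IsBr b) (x y z : L) : b (x + y) z = b x z + b y z := by
  rw [h.anti, h.addR, h.anti z x, h.anti z y, neg_add, neg_neg, neg_neg]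

theorem smulL (h : IsBr b) (c : ℝ) (x y : L) : b (c • x) y = c • b x y := by
  rw [h.anti, h.smulR, h.anti y x, smul_neg, neg_neg]

theorem zeroR (h : IsBr b) (x : L) : b x 0 = 0 := by
  have := h.smulR 0 x 0
  rwa [zero_smul, zero_smul] at this

theorem zeroL (h : IsBr b) (x : L) : b 0 x = 0 := by
  rw [h.anti, h.zeroR, neg_zero]

theorem negR (h : IsBr b) (x y : L) : b x (-y) = -b x y := by
  have := h.smulR (-1) x y
  rwa [neg_one_smul, neg_one_smul] at this

theorem negL (h : IsBr b) (x y : L) : b (-x) y = -b x y := by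
  rw [h.anti, h.negR, neg_neg, h.anti y x]

theorem subR (h : IsBr b) (x y z : L) : b x (y - z) = b x y - b x z := by
  rw [sub_eq_add_neg, h.addR, h.negR, ← sub_eq_add_neg]

theorem subL (h : IsBr b) (x y z : L) : b (x - y) z = b x z - b y z := by
  rw [sub_eq_add_neg, h.addL, h.negL, ← sub_eq_add_neg]

theorem sumR (h : IsBr b) {κ : Type*} (s : Finset κ) (x : L) (y : κ → L) :
    b x (∑ k ∈ s, y k) = ∑ k ∈ s, b x (y k) := by
  classical
  induction s using Finset.induction_on with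
  | empty => simp [h.zeroR]
  | insert a s ha ih => rw [Finset.sum_insert ha, Finset.sum_insert ha, h.addR, ih]

theorem sumL (h : IsBr b) {κ : Type*} (s : Finset κ) (x : L) (y : κ → L) :
    b (∑ k ∈ s, y k) x = ∑ k ∈ s, b (y k) x := by
  rw [h.anti, h.sumR, ← Finset.sum_neg_distrib]
  exact Finset.sum_congr rfl fun k _ => (h.anti _ _).symm

end IsBr

open Finset

/-- the Cauchy product of two series -/
def conv (b : L → L → L) (x y : ℕ → L) (l : ℕ) : L :=
  ∑ p ∈ antidiagonal l, b (x p.1) (y p.2)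

/-- the transport -/
noncomputable def Tr (b : L → L → L) (χ : ℕ → L) (X : L) : ℕ → L
  | 0 => X
  | (l + 1) => ((l : ℝ) + 1)⁻¹ • ∑ j : Fin (l + 1), b (χ j) (Tr b χ X (l - j))
  termination_by l => l
  decreasing_by omega

theorem Tr_zero (χ : ℕ → L) (X : L) : Tr b χ X 0 = X := by rw [Tr]

theorem Tr_succ (χ : ℕ → L) (X : L) (l : ℕ) :
    Tr b χ X (l + 1) = ((l : ℝ) + 1)⁻¹ • conv b χ (Tr b χ X) l := by
  rw [Tr]
  congr 1
  unfold conv
  rw [Nat.sum_antidiagonal_eq_sum_range_succ (fun i j => b (χ i) (Tr b χ X j)) l]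
  exact (Finset.sum_range fun i => b (χ i) (Tr b χ X (l - i))).symm

theorem Tr_succ' (χ : ℕ → L) (X : L) (l : ℕ) :
    ((l : ℝ) + 1) • Tr b χ X (l + 1) = conv b χ (Tr b χ X) l := by
  rw [Tr_succ, smul_smul, mul_inv_cancel₀ (by exact_mod_cast Nat.succ_ne_zero l), one_smul]

/-- uniqueness of the transport -/
theorem Tr_unique {χ : ℕ → L} {Y : ℕ → L} {n : ℕ}
    (hY : ∀ l < n, ((l : ℝ) + 1) • Y (l + 1) = conv b χ Y l) :
    ∀ l ≤ n, Y l = Tr b χ (Y 0) l := by
  intro l
  induction l using Nat.strong_induction_on with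
  | _ l ih =>
    intro hl
    rcases l with _ | l
    · rw [Tr_zero]
    · have h1 := hY l (by omega)
      have h2 : conv b χ Y l = conv b χ (Tr b χ (Y 0)) l := by
        unfold conv
        refine Finset.sum_congr rfl fun p hp => ?_
        have hp' := mem_antidiagonal.1 hp
        rw [ih p.2 (by omega) (by omega)]
      rw [h2, ← Tr_succ'] at h1
      have hne : ((l : ℝ) + 1) ≠ 0 := by exact_mod_cast Nat.succ_ne_zero l
      have h3 := congrArg (fun v => ((l : ℝ) + 1)⁻¹ • v) h1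
      simpa only [smul_smul, inv_mul_cancel₀ hne, one_smul] using h3

/-- the transport up to order `l` depends only on the generator up to order `l - 1` -/
theorem Tr_congr {χ χ' : ℕ → L} {X : L} {n : ℕ} (h : ∀ l < n, χ l = χ' l) :
    ∀ l ≤ n, Tr b χ X l = Tr b χ' X l := by
  intro l hl
  have := Tr_unique (b := b) (χ := χ') (Y := Tr b χ X) (n := n) (fun m hm => ?_) l hl
  · rw [this, Tr_zero]
  · rw [Tr_succ']
    unfold conv
    refine Finset.sum_congr rfl fun p hp => ?_
    have hp' := mem_antidiagonal.1 hp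
    rw [h p.1 (by omega)]

/-- formal derivative -/
def dS (y : ℕ → L) (l : ℕ) : L := ((l : ℝ) + 1) • y (l + 1)

theorem conv_add_right (h : IsBr b) (x y z : ℕ → L) (l : ℕ) :
    conv b x (fun k => y k + z k) l = conv b x y l + conv b x z l := by
  unfold conv
  rw [← Finset.sum_add_distrib]
  exact Finset.sum_congr rfl fun p _ => h.addR _ _ _

theorem conv_add_left (h : IsBr b) (x y z : ℕ → L) (l : ℕ) :
    conv b (fun k => x k + y k) z l = conv b x z l + conv b y z l := by
  unfold conv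
  rw [← Finset.sum_add_distrib]
  exact Finset.sum_congr rfl fun p _ => h.addL _ _ _

omit [Module ℝ L] in
theorem conv_congr {x x' y y' : ℕ → L} {l : ℕ} (hx : ∀ k ≤ l, x k = x' k) (hy : ∀ k ≤ l, y k = y' k) :
    conv b x y l = conv b x' y' l := by
  unfold conv
  refine Finset.sum_congr rfl fun p hp => ?_
  have hp' := mem_antidiagonal.1 hp
  rw [hx p.1 (by omega), hy p.2 (by omega)]

theorem conv_dS (h : IsBr b) (x y : ℕ → L) (l : ℕ) :
    dS (conv b x y) l = conv b (dS x) y l + conv b x (dS y) l := by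
  have h1 : dS (conv b x y) l = ∑ p ∈ antidiagonal (l + 1), ((p.1 : ℝ) • b (x p.1) (y p.2)) +
      ∑ p ∈ antidiagonal (l + 1), ((p.2 : ℝ) • b (x p.1) (y p.2)) := by
    unfold dS conv
    rw [Finset.smul_sum, ← Finset.sum_add_distrib]
    refine Finset.sum_congr rfl fun p hp => ?_
    have hp' := mem_antidiagonal.1 hp
    rw [← add_smul]
    congr 1
    have : ((p.1 + p.2 : ℕ) : ℝ) = ((l + 1 : ℕ) : ℝ) := by rw [hp']
    push_cast at this
    rw [this]
  rw [h1, Finset.Nat.sum_antidiagonal_succ, Finset.Nat.sum_antidiagonal_succ']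
  unfold conv dS
  simp only [Nat.cast_zero, zero_smul, zero_add, Nat.cast_add, Nat.cast_one]
  congr 1
  · exact Finset.sum_congr rfl fun p _ => (h.smulL _ _ _).symm
  · exact Finset.sum_congr rfl fun p _ => (h.smulR _ _ _).symm

omit [Module ℝ L] in
/-- triple sums -/
theorem sum_triple (f : ℕ → ℕ → ℕ → L) (l : ℕ) :
    ∑ p ∈ antidiagonal l, ∑ q ∈ antidiagonal p.2, f p.1 q.1 q.2 =
      ∑ p ∈ antidiagonal l, ∑ q ∈ antidiagonal p.1, f q.1 q.2 p.2 := by
  simp only [Finset.sum_sigma']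
  apply Finset.sum_nbij' (fun ⟨⟨i, _⟩, ⟨k, l⟩⟩ ↦ ⟨(i + k, l), (i, k)⟩)
    (fun ⟨⟨_, j⟩, ⟨k, l⟩⟩ ↦ ⟨(k, l + j), (l, j)⟩) <;> aesop (add simp [add_assoc])

omit [Module ℝ L] in
theorem sum_triple_comm (f : ℕ → ℕ → ℕ → L) (l : ℕ) :
    ∑ p ∈ antidiagonal l, ∑ q ∈ antidiagonal p.2, f p.1 q.1 q.2 =
      ∑ p ∈ antidiagonal l, ∑ q ∈ antidiagonal p.2, f q.1 p.1 q.2 := by
  simp only [Finset.sum_sigma']
  apply Finset.sum_nbij' (fun ⟨⟨i, _⟩, ⟨k, l⟩⟩ ↦ ⟨(k, i + l), (i, l)⟩)
    (fun ⟨⟨i, _⟩, ⟨k, l⟩⟩ ↦ ⟨(k, i + l), (i, l)⟩) <;>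
    aesop (add simp [add_assoc, add_comm, add_left_comm])

theorem conv_jac (h : IsBr b) (x y z : ℕ → L) (l : ℕ) :
    conv b x (conv b y z) l = conv b (conv b x y) z l + conv b y (conv b x z) l := by
  have e1 : conv b x (conv b y z) l =
      ∑ p ∈ antidiagonal l, ∑ q ∈ antidiagonal p.2, b (b (x p.1) (y q.1)) (z q.2) +
      ∑ p ∈ antidiagonal l, ∑ q ∈ antidiagonal p.2, b (y q.1) (b (x p.1) (z q.2)) := by
    unfold conv
    rw [← Finset.sum_add_distrib]
    refine Finset.sum_congr rfl fun p _ => ?_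
    rw [h.sumR, ← Finset.sum_add_distrib]
    exact Finset.sum_congr rfl fun q _ => h.jac _ _ _
  have e2 : conv b (conv b x y) z l =
      ∑ p ∈ antidiagonal l, ∑ q ∈ antidiagonal p.1, b (b (x q.1) (y q.2)) (z p.2) := by
    unfold conv
    exact Finset.sum_congr rfl fun p _ => h.sumL _ _ _
  have e3 : conv b y (conv b x z) l =
      ∑ p ∈ antidiagonal l, ∑ q ∈ antidiagonal p.2, b (y p.1) (b (x q.1) (z q.2)) := by
    unfold conv
    exact Finset.sum_congr rfl fun p _ => h.sumR _ _ _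
  rw [e1, e2, e3, sum_triple (fun i j k => b (b (x i) (y j)) (z k)),
    sum_triple_comm (fun i j k => b (y j) (b (x i) (z k)))]

/-- the transport is a homomorphism of the brackets -/
theorem Tr_br (h : IsBr b) (χ : ℕ → L) (X Y : L) (l : ℕ) :
    conv b (Tr b χ X) (Tr b χ Y) l = Tr b χ (b X Y) l := by
  have h0 : conv b (Tr b χ X) (Tr b χ Y) 0 = b X Y := by
    unfold conv
    rw [Finset.Nat.antidiagonal_zero, Finset.sum_singleton, Tr_zero, Tr_zero]
  rw [← h0]
  refine Tr_unique (n := l) (fun m _ => ?_) l le_rfl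
  have h1 := conv_dS h (Tr b χ X) (Tr b χ Y) m
  have e1 : dS (Tr b χ X) = conv b χ (Tr b χ X) := funext fun k => Tr_succ' χ X k
  have e2 : dS (Tr b χ Y) = conv b χ (Tr b χ Y) := funext fun k => Tr_succ' χ Y k
  rw [e1, e2, ← conv_jac h] at h1
  exact h1

/-- the sum of the transports of `Z_i` with weights `τ^i` -/
noncomputable def TrS (b : L → L → L) (χ Z : ℕ → L) (l : ℕ) : L :=
  ∑ p ∈ antidiagonal l, Tr b χ (Z p.1) p.2

theorem conv_TrS (h : IsBr b) (χ Z : ℕ → L) (J : L) (l : ℕ) :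
    conv b (TrS b χ Z) (Tr b χ J) l = TrS b χ (fun i => b (Z i) J) l := by
  have e1 : conv b (TrS b χ Z) (Tr b χ J) l =
      ∑ p ∈ antidiagonal l, ∑ q ∈ antidiagonal p.1, b (Tr b χ (Z q.1) q.2) (Tr b χ J p.2) := by
    unfold conv TrS
    exact Finset.sum_congr rfl fun p _ => h.sumL _ _ _
  rw [e1, ← sum_triple (fun i j k => b (Tr b χ (Z i) j) (Tr b χ J k))]
  unfold TrS
  refine Finset.sum_congr rfl fun p _ => ?_
  rw [← Tr_br h]
  rfl

/-- **Deprit's recursion.** If `H' = {χ, H} + ∑ τ^i T Z_i` up to order `n`, then the series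
`D = {H, T J}` satisfies `D' = {χ, D} + ∑ τ^i T {Z_i, J}` up to order `n`. -/
theorem deprit (h : IsBr b) {χ Z H : ℕ → L} {n : ℕ}
    (hH : ∀ l < n, dS H l = conv b χ H l + TrS b χ Z l) (J : L) :
    ∀ l < n, dS (conv b H (Tr b χ J)) l =
      conv b χ (conv b H (Tr b χ J)) l + TrS b χ (fun i => b (Z i) J) l := by
  intro l hl
  have e2 : dS (Tr b χ J) = conv b χ (Tr b χ J) := funext fun k => Tr_succ' χ J k
  have e3 : conv b (dS H) (Tr b χ J) l =
      conv b (fun k => conv b χ H k + TrS b χ Z k) (Tr b χ J) l :=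
    conv_congr (fun k hk => hH k (by omega)) fun k _ => rfl
  rw [conv_dS h, e2, e3, conv_add_left h, conv_TrS h, conv_jac h χ H]
  abel

end Vale.Agent.P139.NF
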